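import Vale.Agent.P183.R2.H577.Base

/-! P183: endomorphisms and antiendomorphisms of the ring act on the matrix group (after
helper554). -/

set_option linter.unusedSectionVars false

namespace Vale.Agent.P183.H577

open Matrix

namespace H750

variable {R : Type} [Ring R] [Finite R] {n : ℕ} {ι : Type} [Fintype ι] [DecidableEq ι]

theorem theta_one {e : Fin n → R} (hs : ∑ i, e i = 1) {θ : R →+ R} (hθe : ∀ i, θ (e i) = e i) :
    θ 1 = 1 := by
  rw [← hs, map_sum]
  exact Finset.sum_congr rfl fun i _ => hθe i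

theorem theta_sand {θ : R →+ R}
    (hθ : (∀ x y, θ (x * y) = θ x * θ y) ∨ (∀ x y, θ (x * y) = θ y * θ x)) {e : R}
    (he : θ e = e) (x : R) : θ (e * x * e) = e * θ x * e := by
  rcases hθ with h | h
  · rw [h, h, he]
  · rw [h, h, he, mul_assoc]

/-- it is enough to look at the off-diagonal Peirce components -/
theorem theta_mem {e : Fin n → R} (hs : ∑ i, e i = 1) {θ : R →+ R}
    (hθ : (∀ x y, θ (x * y) = θ x * θ y) ∨ (∀ x y, θ (x * y) = θ y * θ x))
    (hθe : ∀ i, θ (e i) = e i) {S : Subring R} (hS : ∀ i x, e i * x * e i ∈ S)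
    {x : R} (h : ∀ i j, i ≠ j → θ (e i * x * e j) ∈ S) : θ x ∈ S := by
  have h1 : x = ∑ i, ∑ j, e i * x * e j := by
    have h2 : ∀ i, ∑ j, e i * x * e j = e i * x := by
      intro i
      rw [← Finset.mul_sum, hs, mul_one]
    simp only [h2]
    rw [← Finset.sum_mul, hs, one_mul]
  rw [h1, map_sum]
  refine S.sum_mem fun i _ => ?_
  rw [map_sum]
  refine S.sum_mem fun j _ => ?_
  by_cases hij : i = j
  · subst hij
    rw [theta_sand hθ (hθe i)]
    exact hS _ _
  · exact h i j hij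

/-- the elementary matrix `1 + x E_ab` -/
def tv (a b : ι) (hab : a ≠ b) (x : R) : (Matrix ι ι R)ˣ where
  val := 1 + Matrix.single a b x
  inv := 1 - Matrix.single a b x
  val_inv := by
    have h : Matrix.single a b x * Matrix.single a b x = 0 := by
      rw [Matrix.single_mul_single_of_ne]
      exact fun h => hab h.symm
    have : (1 + Matrix.single a b x) * (1 - Matrix.single a b x) =
        1 - Matrix.single a b x * Matrix.single a b x := by noncomm_ring
    rw [this, h, sub_zero]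
  inv_val := by
    have h : Matrix.single a b x * Matrix.single a b x = 0 := by
      rw [Matrix.single_mul_single_of_ne]
      exact fun h => hab h.symm
    have : (1 - Matrix.single a b x) * (1 + Matrix.single a b x) =
        1 - Matrix.single a b x * Matrix.single a b x := by noncomm_ring
    rw [this, h, sub_zero]

theorem ent_single {e : Fin n → R} (he : ∀ i, e i * e i = e i) {p : ι → Fin n} {S : Subring R}
    {a b : ι} {x : R} (hx : e (p a) * x * e (p b) ∈ S) :
    Ent e S p (Matrix.single a b (e (p a) * x * e (p b))) := by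
  intro c d
  by_cases h : a = c ∧ b = d
  · obtain ⟨rfl, rfl⟩ := h
    rw [Matrix.single_apply_same]
    refine ⟨hx, ?_, ?_⟩
    · rw [← mul_assoc, ← mul_assoc, he]
    · rw [mul_assoc, he]
  · rw [Matrix.single_apply_of_ne _ _ _ _ _ h, mul_zero, zero_mul]
    exact ⟨S.zero_mem, rfl, rfl⟩

theorem tv_mem {e : Fin n → R} (he : ∀ i, e i * e i = e i) {p : ι → Fin n} {S : Subring R}
    {a b : ι} (hab : a ≠ b) {x : R} (hx : e (p a) * x * e (p b) ∈ S) :
    tv a b hab (e (p a) * x * e (p b)) ∈ gl e S p := by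
  show Ent e S p ((1 + Matrix.single a b (e (p a) * x * e (p b))) - 1)
  rw [add_sub_cancel_left]
  exact ent_single he hx

theorem peirce_mem {e : Fin n → R} (he : ∀ i, e i * e i = e i) {S : Subring R}
    (hS : ∀ i x, e i * x * e i ∈ S) {x : R} (hx : x ∈ S) (i j : Fin n) : e i * x * e j ∈ S := by
  have h : ∀ k, e k ∈ S := fun k => by
    have := hS k 1
    rwa [mul_one, he] at this
  exact S.mul_mem (S.mul_mem (h i) hx) (h j)

/-- automorphisms -/
theorem alpha_mul (e : Fin n → R)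
    (he : ∀ i, e i * e i = e i) (hs : ∑ i, e i = 1)
    (p : ι → Fin n) (hp : Function.Surjective p) (θ : R →+ R)
    (hθ : ∀ x y, θ (x * y) = θ x * θ y) (hθe : ∀ i, θ (e i) = e i) :
    ∃ α : (Matrix ι ι R)ˣ →* (Matrix ι ι R)ˣ, (∀ g ∈ bl e p, α g ∈ bl e p) ∧
      ∀ S : Subring R, (∀ i x, e i * x * e i ∈ S) →
        ((∀ g ∈ gl e S p, α g ∈ gl e S p) ↔ ∀ x ∈ S, θ x ∈ S) := by
  have h1 : θ 1 = 1 := theta_one hs hθe
  have hmap : ∀ N M : Matrix ι ι R, (N * M).map θ = N.map θ * M.map θ := by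
    intro N M
    ext a b
    simp only [Matrix.map_apply, Matrix.mul_apply, map_sum, hθ]
  have hone : (1 : Matrix ι ι R).map θ = 1 := by
    ext a b
    by_cases hab : a = b
    · subst hab
      rw [Matrix.map_apply, Matrix.one_apply_eq, h1]
    · rw [Matrix.map_apply, Matrix.one_apply_ne hab, map_zero]
  have hsub : ∀ N : Matrix ι ι R, N.map θ - 1 = (N - 1).map θ := by
    intro N
    have h2 : (N - 1).map θ = N.map θ - (1 : Matrix ι ι R).map θ := by
      ext a b
      simp only [Matrix.sub_apply, Matrix.map_apply, map_sub]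
    rw [h2, hone]
  let f : (Matrix ι ι R)ˣ →* (Matrix ι ι R)ˣ :=
    { toFun := fun g => ⟨g.1.map θ, g⁻¹.1.map θ, by
          rw [← hmap, Units.mul_inv, hone], by rw [← hmap, Units.inv_mul, hone]⟩
      map_one' := Units.ext hone
      map_mul' := fun g h => Units.ext (hmap _ _) }
  have hent : ∀ (S : Subring R) (N : Matrix ι ι R), (∀ x ∈ S, θ x ∈ S) → Ent e S p N →
      Ent e S p (N.map θ) := by
    intro S N hS hN a b
    rw [Matrix.map_apply]
    obtain ⟨h2, h3, h4⟩ := hN a b
    refine ⟨hS _ h2, ?_, ?_⟩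
    · conv_rhs => rw [← h3, hθ, hθe]
    · conv_rhs => rw [← h4, hθ, hθe]
  refine ⟨f, ?_, ?_⟩
  · intro g hg
    have hg' : Blk e p (g.1 - 1) := hg
    show Blk e p (g.1.map θ - 1)
    rw [hsub]
    refine ⟨hent ⊤ _ (fun _ _ => Subring.mem_top _) hg'.1, fun a b hab => ?_⟩
    rw [Matrix.map_apply, hg'.2 a b hab, map_zero]
  · intro S hS
    constructor
    · intro h x hx
      refine theta_mem hs (Or.inl hθ) hθe hS fun i j hij => ?_
      obtain ⟨a, rfl⟩ := hp i
      obtain ⟨b, rfl⟩ := hp j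
      have hab : a ≠ b := fun h => hij (by rw [h])
      have h2 := h _ (tv_mem he hab (peirce_mem he hS hx (p a) (p b)))
      have h3 : Ent e S p
          ((1 + Matrix.single a b (e (p a) * x * e (p b))).map θ - 1) := h2
      rw [hsub, add_sub_cancel_left] at h3
      have h4 := (h3 a b).1
      rwa [Matrix.map_apply, Matrix.single_apply_same] at h4
    · intro h g hg
      have hg' : Ent e S p (g.1 - 1) := hg
      show Ent e S p (g.1.map θ - 1)
      rw [hsub]
      exact hent S _ h hg'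

/-- antiautomorphisms -/
theorem alpha_anti (e : Fin n → R)
    (he : ∀ i, e i * e i = e i) (hs : ∑ i, e i = 1)
    (p : ι → Fin n) (hp : Function.Surjective p) (θ : R →+ R)
    (hθ : ∀ x y, θ (x * y) = θ y * θ x) (hθe : ∀ i, θ (e i) = e i) :
    ∃ α : (Matrix ι ι R)ˣ →* (Matrix ι ι R)ˣ, (∀ g ∈ bl e p, α g ∈ bl e p) ∧
      ∀ S : Subring R, (∀ i x, e i * x * e i ∈ S) →
        ((∀ g ∈ gl e S p, α g ∈ gl e S p) ↔ ∀ x ∈ S, θ x ∈ S) := by
  have h1 : θ 1 = 1 := theta_one hs hθe
  have hmap : ∀ N M : Matrix ι ι R, ((N * M).map θ)ᵀ = (M.map θ)ᵀ * (N.map θ)ᵀ := by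
    intro N M
    ext a b
    simp only [Matrix.transpose_apply, Matrix.map_apply, Matrix.mul_apply, map_sum, hθ]
  have hone : ((1 : Matrix ι ι R).map θ)ᵀ = 1 := by
    ext a b
    rw [Matrix.transpose_apply, Matrix.map_apply]
    by_cases hab : a = b
    · subst hab
      rw [Matrix.one_apply_eq, h1]
    · rw [Matrix.one_apply_ne hab, Matrix.one_apply_ne (fun h => hab h.symm), map_zero]
  have hsub : ∀ N : Matrix ι ι R, (N.map θ)ᵀ - 1 = ((N - 1).map θ)ᵀ := by
    intro N
    have h2 : ((N - 1).map θ)ᵀ = (N.map θ)ᵀ - ((1 : Matrix ι ι R).map θ)ᵀ := by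
      ext a b
      simp only [Matrix.sub_apply, Matrix.map_apply, Matrix.transpose_apply, map_sub]
    rw [h2, hone]
  let f : (Matrix ι ι R)ˣ →* (Matrix ι ι R)ˣ :=
    { toFun := fun g => ⟨(g⁻¹.1.map θ)ᵀ, (g.1.map θ)ᵀ, by
          rw [← hmap, Units.mul_inv, hone], by rw [← hmap, Units.inv_mul, hone]⟩
      map_one' := Units.ext (by
        show (((1 : (Matrix ι ι R)ˣ)⁻¹).1.map θ)ᵀ = 1
        rw [inv_one, Units.val_one, hone])
      map_mul' := fun g h => Units.ext (by
        show (((g * h)⁻¹).1.map θ)ᵀ = (g⁻¹.1.map θ)ᵀ * (h⁻¹.1.map θ)ᵀ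
        rw [_root_.mul_inv_rev, Units.val_mul, hmap]) }
  have hent : ∀ (S : Subring R) (N : Matrix ι ι R), (∀ x ∈ S, θ x ∈ S) → Ent e S p N →
      Ent e S p (N.map θ)ᵀ := by
    intro S N hS hN a b
    rw [Matrix.transpose_apply, Matrix.map_apply]
    obtain ⟨h2, h3, h4⟩ := hN b a
    refine ⟨hS _ h2, ?_, ?_⟩
    · conv_rhs => rw [← h4, hθ, hθe]
    · conv_rhs => rw [← h3, hθ, hθe]
  refine ⟨f, ?_, ?_⟩
  · intro g hg
    have hg' : Blk e p (g⁻¹.1 - 1) := (bl e p).inv_mem hg
    show Blk e p ((g⁻¹.1.map θ)ᵀ - 1)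
    rw [hsub]
    refine ⟨hent ⊤ _ (fun _ _ => Subring.mem_top _) hg'.1, fun a b hab => ?_⟩
    rw [Matrix.transpose_apply, Matrix.map_apply, hg'.2 b a (fun h => hab h.symm), map_zero]
  · intro S hS
    constructor
    · intro h x hx
      refine theta_mem hs (Or.inr hθ) hθe hS fun i j hij => ?_
      obtain ⟨a, rfl⟩ := hp i
      obtain ⟨b, rfl⟩ := hp j
      have hab : a ≠ b := fun h => hij (by rw [h])
      have h2 := h _ ((gl e S p).inv_mem
        (tv_mem he hab (peirce_mem he hS hx (p a) (p b))))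
      have h3 : Ent e S p
          (((((tv a b hab (e (p a) * x * e (p b)))⁻¹)⁻¹).1.map θ)ᵀ - 1) := h2
      rw [inv_inv, hsub] at h3
      have h5 : (tv a b hab (e (p a) * x * e (p b))).1 - 1 =
          Matrix.single a b (e (p a) * x * e (p b)) := by
        show (1 + Matrix.single a b (e (p a) * x * e (p b))) - 1 = _
        rw [add_sub_cancel_left]
      rw [h5] at h3
      have h4 := (h3 b a).1
      rwa [Matrix.transpose_apply, Matrix.map_apply, Matrix.single_apply_same] at h4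
    · intro h g hg
      have hg' : Ent e S p (g⁻¹.1 - 1) := (gl e S p).inv_mem hg
      show Ent e S p ((g⁻¹.1.map θ)ᵀ - 1)
      rw [hsub]
      exact hent S _ h hg'

end H750

/-- Endomorphisms (entrywise) and antiendomorphisms (inverse transpose) of the ring act on the
matrix group. -/
theorem alpha_end_750 {R : Type} [Ring R] [Finite R] {n : ℕ}
    {ι : Type} [Fintype ι] [DecidableEq ι] (e : Fin n → R)
    (he : ∀ i, e i * e i = e i) (ho : ∀ i j, i ≠ j → e i * e j = 0) (hs : ∑ i, e i = 1)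
    (p : ι → Fin n) (hp : Function.Surjective p) (θ : R →+ R)
    (hθ : (∀ x y, θ (x * y) = θ x * θ y) ∨ (∀ x y, θ (x * y) = θ y * θ x))
    (hθe : ∀ i, θ (e i) = e i) :
    ∃ α : (Matrix ι ι R)ˣ →* (Matrix ι ι R)ˣ, (∀ g ∈ bl e p, α g ∈ bl e p) ∧
      ∀ S : Subring R, (∀ i x, e i * x * e i ∈ S) →
        ((∀ g ∈ gl e S p, α g ∈ gl e S p) ↔ ∀ x ∈ S, θ x ∈ S) := by
  have _ := ho
  rcases hθ with hθ | hθ
  · exact H750.alpha_mul e he hs p hp θ hθ hθe
  · exact H750.alpha_anti e he hs p hp θ hθ hθe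

end Vale.Agent.P183.H577
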