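import Vale.Agent.P183.H750.Iso
import Mathlib.Combinatorics.Colex

/-!
Large blocks with different subset sums.
-/

namespace Vale.Agent.P183.H750

set_option linter.all false

open Matrix

/-- The block sizes. -/
def bs (D : ℕ) {n : ℕ} {X : Type} (e : X ≃ Fin n) (x : X) : ℕ := D * 2 ^ (e x : ℕ)

theorem good_exists (R : Type) [CommRing R] [Finite R] (X : Type) [Finite X] :
    ∃ (N : Type) (_ : Fintype N) (_ : DecidableEq N) (blk : N → X), Good R blk := by
  classical
  obtain ⟨n, ⟨e⟩⟩ := Finite.exists_equiv_fin X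
  haveI : Fintype R := Fintype.ofFinite R
  haveI : Fintype X := Fintype.ofFinite X
  set D := Fintype.card R + 4 with hD
  let d : X → ℕ := bs D e
  have hd : ∀ x, D ≤ d x := by
    intro x
    have : 0 < 2 ^ ((e x : Fin n) : ℕ) := by positivity
    change D ≤ D * _
    nlinarith
  refine ⟨Σ x : X, Fin (d x), inferInstance, inferInstance, Sigma.fst, ?_, ?_, ?_⟩
  · rintro φ ⟨i, c⟩
    have hcard : (Finset.univ : Finset R).card < (Finset.univ.erase c : Finset (Fin (d i))).card := by
      rw [Finset.card_erase_of_mem (Finset.mem_univ _), Finset.card_univ, Finset.card_univ,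
        Fintype.card_fin]
      have := hd i
      omega
    obtain ⟨a, ha, b, hb, hab, h⟩ := Finset.exists_ne_map_eq_of_card_lt_of_maps_to hcard
      (f := fun a => φ ⟨i, a⟩) (fun a _ => Finset.mem_univ _)
    refine ⟨⟨i, a⟩, ⟨i, b⟩, ?_, ?_, ?_, rfl, rfl, h⟩
    · intro h; exact hab (eq_of_heq (Sigma.mk.inj h).2)
    · intro h; exact (Finset.ne_of_mem_erase ha) (eq_of_heq (Sigma.mk.inj h).2)
    · intro h; exact (Finset.ne_of_mem_erase hb) (eq_of_heq (Sigma.mk.inj h).2)
  · intro i c c'
    have hcard : ({c, c'} : Finset (Σ x : X, Fin (d x))).card <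
        (Finset.univ.map ⟨fun a : Fin (d i) => (⟨i, a⟩ : Σ x : X, Fin (d x)),
          fun a b h => eq_of_heq (Sigma.mk.inj h).2⟩).card := by
      rw [Finset.card_map, Finset.card_univ, Fintype.card_fin]
      have := hd i
      have := Finset.card_le_two (a := c) (b := c')
      omega
    obtain ⟨a, ha, hna⟩ := Finset.exists_mem_notMem_of_card_lt_card hcard
    obtain ⟨a', -, rfl⟩ := Finset.mem_map.1 ha
    simp only [Finset.mem_insert, Finset.mem_singleton, not_or] at hna
    exact ⟨_, rfl, hna.1, hna.2⟩
  · have hcard : ∀ S : Set X, Nat.card {x : Σ x : X, Fin (d x) // x.1 ∈ S} =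
        D * ∑ i ∈ S.toFinset.image (fun x => ((e x : Fin n) : ℕ)), 2 ^ i := by
      intro S
      rw [Nat.card_eq_fintype_card, Fintype.card_subtype]
      have : (Finset.univ.filter (fun x : Σ x : X, Fin (d x) => x.1 ∈ S)) =
          S.toFinset.sigma (fun _ => Finset.univ) := by
        ext x; simp
      rw [this, Finset.card_sigma, Finset.sum_image (by
        intro x _ y _ h; exact e.injective (Fin.ext h)), Finset.mul_sum]
      refine Finset.sum_congr rfl (fun x _ => ?_)
      rw [Finset.card_univ, Fintype.card_fin]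
      rfl
    intro S T h
    rw [hcard, hcard] at h
    have h2 := Nat.eq_of_mul_eq_mul_left (by omega) h
    have h3 := Finset.geomSum_injective (le_refl 2) h2
    have h4 := Finset.image_injective (f := fun x : X => ((e x : Fin n) : ℕ))
      (fun x y h => e.injective (Fin.ext h)) h3
    exact Set.toFinset_inj.1 h4

end Vale.Agent.P183.H750
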