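import Vale.Agent.P183.H750.Lower
import Mathlib.LinearAlgebra.Matrix.Determinant.Basic
import Mathlib.Algebra.Algebra.Operations
import Mathlib.LinearAlgebra.Matrix.SchurComplement

/-!
Overgroups of `GL(d, A)` in `GL(d, B)` for finite commutative rings `A ≤ B`: the ring of an
overgroup.
-/

namespace Vale.Agent.P183.H750

set_option linter.all false

open Matrix

variable {B : Type} [CommRing B] {N : Type} [Fintype N] [DecidableEq N]

/-- Matrices with entries in a subring, and determinant in a smaller subring. -/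
def ringGroup (A C : Subring B) : Subgroup (Matrix N N B)ˣ where
  carrier := {g | ((∀ x y, (g : Matrix N N B) x y ∈ C) ∧
    ∀ x y, ((g⁻¹ : (Matrix N N B)ˣ) : Matrix N N B) x y ∈ C) ∧
    ((g : Matrix N N B).det ∈ A ∧ ((g⁻¹ : (Matrix N N B)ˣ) : Matrix N N B).det ∈ A)}
  one_mem' := by
    have : ∀ x y : N, (1 : Matrix N N B) x y ∈ C := by
      intro x y
      by_cases h : x = y
      · subst h; rw [Matrix.one_apply_eq]; exact C.one_mem
      · rw [Matrix.one_apply_ne h]; exact C.zero_mem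
    exact ⟨⟨by simpa using this, by simpa using this⟩, by simpa using A.one_mem,
      by simpa using A.one_mem⟩
  mul_mem' := by
    intro a b ha hb
    have key : ∀ P Q : Matrix N N B, (∀ x y, P x y ∈ C) →
        (∀ x y, Q x y ∈ C) → ∀ x y, (P * Q) x y ∈ C := by
      intro P Q hA hB x y
      rw [Matrix.mul_apply]
      exact C.sum_mem (fun z _ => C.mul_mem (hA x z) (hB z y))
    refine ⟨⟨?_, ?_⟩, ?_, ?_⟩
    · rw [Units.val_mul]; exact key _ _ ha.1.1 hb.1.1
    · rw [_root_.mul_inv_rev, Units.val_mul]; exact key _ _ hb.1.2 ha.1.2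
    · rw [Units.val_mul, Matrix.det_mul]; exact A.mul_mem ha.2.1 hb.2.1
    · rw [_root_.mul_inv_rev, Units.val_mul, Matrix.det_mul]; exact A.mul_mem hb.2.2 ha.2.2
  inv_mem' := by
    intro a ha
    exact ⟨⟨ha.1.2, by rw [inv_inv]; exact ha.1.1⟩, ha.2.2, by rw [inv_inv]; exact ha.2.1⟩

theorem mem_ringGroup {A C : Subring B} {g : (Matrix N N B)ˣ} :
    g ∈ ringGroup A C ↔ ((∀ x y, (g : Matrix N N B) x y ∈ C) ∧
    ∀ x y, ((g⁻¹ : (Matrix N N B)ˣ) : Matrix N N B) x y ∈ C) ∧
    ((g : Matrix N N B).det ∈ A ∧ ((g⁻¹ : (Matrix N N B)ˣ) : Matrix N N B).det ∈ A) := Iff.rfl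

theorem ringGroup_mono {A C C' : Subring B} (h : C ≤ C') :
    ringGroup (N := N) A C ≤ ringGroup A C' := fun g hg =>
  ⟨⟨fun x y => h (hg.1.1 x y), fun x y => h (hg.1.2 x y)⟩, hg.2⟩

theorem det_rank_one {w ψ : N → B} (h : ψ ⬝ᵥ w = 0) :
    (1 + vecMulVec w ψ : Matrix N N B).det = 1 := by
  rw [vecMulVec_eq (ι := Unit), Matrix.det_one_add_replicateCol_mul_replicateRow, h, add_zero]

theorem mem_ring_rank_one {A C : Subring B} {w ψ : N → B} (h : ψ ⬝ᵥ w = 0)
    (hb : ∀ x y, w x * ψ y ∈ C) : Mem (ringGroup A C) (1 + vecMulVec w ψ) := by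
  have e1 : ∀ x y : N, (1 : Matrix N N B) x y ∈ C := by
    intro x y
    by_cases h : x = y
    · subst h; rw [Matrix.one_apply_eq]; exact C.one_mem
    · rw [Matrix.one_apply_ne h]; exact C.zero_mem
  have e2 : (1 - vecMulVec w ψ : Matrix N N B) = 1 + vecMulVec (-w) ψ := by
    ext i j; simp [vecMulVec_apply, sub_eq_add_neg]
  refine ⟨⟨1 + vecMulVec w ψ, 1 - vecMulVec w ψ, mul_inv_rank_one h, inv_mul_rank_one h⟩,
    ⟨⟨?_, ?_⟩, ?_, ?_⟩, rfl⟩
  · intro x y
    change (1 + vecMulVec w ψ : Matrix N N B) x y ∈ C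
    rw [Matrix.add_apply, vecMulVec_apply]
    exact C.add_mem (e1 x y) (hb x y)
  · intro x y
    change (1 - vecMulVec w ψ : Matrix N N B) x y ∈ C
    rw [Matrix.sub_apply, vecMulVec_apply]
    exact C.sub_mem (e1 x y) (hb x y)
  · change (1 + vecMulVec w ψ : Matrix N N B).det ∈ A
    rw [det_rank_one h]; exact A.one_mem
  · change (1 - vecMulVec w ψ : Matrix N N B).det ∈ A
    rw [e2, det_rank_one (by simp [h])]; exact A.one_mem

/-- The index set is large. -/
structure Big (B : Type) [CommRing B] (N : Type) [Fintype N] : Prop where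
  pigeon : ∀ (φ : N → B) (c : N), ∃ a b, a ≠ b ∧ a ≠ c ∧ b ≠ c ∧ φ a = φ b
  other : ∀ s : Finset N, s.card ≤ 4 → ∃ a, a ∉ s
  one : (Fintype.card N : B) = 1

section

variable {A : Subring B} {K : Subgroup (Matrix N N B)ˣ}
  (hK : ringGroup A A ≤ K) (hN : Big B N)

include hK in
theorem hmem {w ψ : N → B} (h : ψ ⬝ᵥ w = 0) (hw : ∀ x, w x ∈ A) (hψ : ∀ x, ψ x ∈ A) :
    Mem K (1 + vecMulVec w ψ) := by
  obtain ⟨g, hg, e⟩ := mem_ring_rank_one (A := A) (C := A) h (fun x y => A.mul_mem (hw x) (hψ y))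
  exact ⟨g, hK hg, e⟩

theorem single_mem (A : Subring B) (a : N) {r : B} (hr : r ∈ A) (x : N) :
    (Pi.single a r : N → B) x ∈ A := by
  rw [Pi.single_apply]; split_ifs
  · exact hr
  · exact A.zero_mem

include hK in
theorem row_step' {x0 x1 y0 : N} {r : B} (hM : Mem K (E x0 y0 r)) (h0 : x0 ≠ y0)
    (h1 : x1 ≠ y0) (h2 : x1 ≠ x0) : Mem K (E x1 y0 r) := by
  have := Mem.comm_one (u := Pi.single x0 (1 : B)) (φ := Pi.single y0 r)
    (w := Pi.single x1 (1 : B)) (ψ := Pi.single x0 (1 : B)) hM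
    (hmem hK (by simp [Pi.single_apply, h2, h2.symm]) (single_mem A _ A.one_mem)
      (single_mem A _ A.one_mem))
    (by simp [Pi.single_apply, h0, h0.symm]) (by simp [Pi.single_apply, h2, h2.symm])
    (by simp [Pi.single_apply, h1, h1.symm])
  rw [E_def]
  simpa using this

include hK in
theorem col_step' {x0 y0 y1 : N} {r : B} (hM : Mem K (E x0 y0 r)) (h0 : x0 ≠ y0)
    (h1 : y1 ≠ x0) (h2 : y1 ≠ y0) : Mem K (E x0 y1 (-r)) := by
  have := Mem.comm_two (u := Pi.single x0 (1 : B)) (φ := Pi.single y0 r)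
    (w := Pi.single y0 (1 : B)) (ψ := Pi.single y1 (1 : B)) hM
    (hmem hK (by simp [Pi.single_apply, h2, h2.symm]) (single_mem A _ A.one_mem)
      (single_mem A _ A.one_mem))
    (by simp [Pi.single_apply, h0, h0.symm]) (by simp [Pi.single_apply, h2, h2.symm])
    (by simp [Pi.single_apply, h1, h1.symm])
  have e : (1 : Matrix N N B) - vecMulVec (Pi.single x0 (1 : B))
      ((Pi.single y0 r ⬝ᵥ Pi.single y0 (1 : B)) • (Pi.single y1 (1 : B) : N → B)) =
      E x0 y1 (-r) := by
    rw [E_def]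
    ext i j
    simp only [vecMulVec_apply, Matrix.add_apply, Matrix.sub_apply, Pi.smul_apply, Pi.single_apply,
      smul_eq_mul, single_dotProduct]
    split_ifs <;> simp [sub_eq_add_neg]
  rw [← e]
  exact this

include hK hN in
theorem all_of_one' {x0 y0 : N} {r : B} (hM : Mem K (E x0 y0 r)) (h0 : x0 ≠ y0) (x y : N)
    (hxy : x ≠ y) : Mem K (E x y r) := by
  -- a fresh column
  obtain ⟨z, hz⟩ := hN.other {x0, y0, x, y} (by
    refine (Finset.card_insert_le _ _).trans ?_
    have := Finset.card_le_three (a := y0) (b := x) (c := y)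
    omega)
  simp only [Finset.mem_insert, Finset.mem_singleton, not_or] at hz
  have a1 := col_step' hK hM h0 hz.1 hz.2.1
  -- now in the column `z`: move the row to `x`
  have a2 : Mem K (E x z (-r)) := by
    by_cases h : x = x0
    · rw [h]; exact a1
    · exact row_step' hK a1 (Ne.symm hz.1) (Ne.symm hz.2.2.1) h
  have a3 := col_step' hK a2 (Ne.symm hz.2.2.1) hxy.symm (Ne.symm hz.2.2.2)
  simpa using a3

include hK hN in
/-- Extraction. -/
theorem extract' {u φ : N → B} (hM : Mem K (1 + vecMulVec u φ)) (h0 : φ ⬝ᵥ u = 0) (c b' : N)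
    (x y : N) (hxy : x ≠ y) : Mem K (E x y (u c * φ b')) := by
  obtain ⟨a, b, hab, hac, hbc, hφ⟩ := hN.pigeon φ c
  set w : N → B := Pi.single b 1 - Pi.single a 1 with hw
  have hwA : ∀ x, w x ∈ A := fun x => A.sub_mem (single_mem A _ A.one_mem x)
    (single_mem A _ A.one_mem x)
  have s1 := Mem.comm_one hM (hmem hK (w := w) (ψ := Pi.single c (1 : B))
    (by simp [hw, Pi.single_apply, hac.symm, hbc.symm, hac, hbc]) hwA (single_mem A _ A.one_mem))
    h0 (by simp [hw, Pi.single_apply, hac.symm, hbc.symm, hac, hbc])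
    (by simp [hw, dotProduct_sub, hφ])
  obtain ⟨c', hc'⟩ := hN.other {a, b, b'} (by
    have := Finset.card_le_three (a := a) (b := b) (c := b')
    omega)
  simp only [Finset.mem_insert, Finset.mem_singleton, not_or] at hc'
  have wc' : w c' = 0 := by simp [hw, Pi.single_apply, hc'.1, hc'.2.1]
  have s2 := Mem.comm_two s1 (hmem hK (w := Pi.single b' (1 : B)) (ψ := Pi.single c' (1 : B))
    (by simp [Pi.single_apply, hc'.2.2, Ne.symm hc'.2.2]) (single_mem A _ A.one_mem)
    (single_mem A _ A.one_mem)) (by simp [hw, dotProduct_sub, hφ])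
    (by simp [Pi.single_apply, hc'.2.2, Ne.symm hc'.2.2]) (by simp [wc'])
  have s2' : Mem K (1 + vecMulVec w (Pi.single c' (-(u c * φ b')))) := by
    have e : (1 : Matrix N N B) - vecMulVec ((Pi.single c (1 : B) ⬝ᵥ u) • w)
        ((φ ⬝ᵥ Pi.single b' (1 : B)) • (Pi.single c' (1 : B) : N → B)) =
        1 + vecMulVec w (Pi.single c' (-(u c * φ b'))) := by
      ext i j
      simp only [vecMulVec_apply, Matrix.add_apply, Matrix.sub_apply, Pi.smul_apply,
        Pi.single_apply, smul_eq_mul, single_dotProduct, dotProduct_single]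
      split_ifs <;> ring
    rw [← e]; exact s2
  obtain ⟨d, hd⟩ := hN.other {a, b, c'} (by
    have := Finset.card_le_three (a := a) (b := b) (c := c')
    omega)
  simp only [Finset.mem_insert, Finset.mem_singleton, not_or] at hd
  have s3 := Mem.comm_one s2' (hmem hK (w := Pi.single d (1 : B)) (ψ := Pi.single b (1 : B))
    (by simp [Pi.single_apply, hd.2.1, Ne.symm hd.2.1]) (single_mem A _ A.one_mem)
    (single_mem A _ A.one_mem)) (by simp [wc'])
    (by simp [Pi.single_apply, hd.2.1, Ne.symm hd.2.1])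
    (by simp [Pi.single_apply, hd.2.2, Ne.symm hd.2.2])
  have wb : w b = 1 := by simp [hw, Pi.single_apply, hab.symm, hab]
  have s3' : Mem K (E d c' (-(u c * φ b'))) := by
    have : (Pi.single b (1 : B) ⬝ᵥ w) = 1 := by simp [wb]
    rw [this, one_smul] at s3
    exact s3
  have hdc : d ≠ c' := hd.2.2
  have h4 := (s3'.inv (B := E d c' (u c * φ b')) (by rw [E_mul hdc, neg_add_cancel, E_zero]))
  exact all_of_one' hK hN h4 hdc x y hxy

end

end Vale.Agent.P183.H750
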