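import Vale.Agent.P183.H750.Mat

/-!
The net of ideals of an overgroup of the block diagonal group.
-/

namespace Vale.Agent.P183.H750

set_option linter.all false

open Matrix

variable {R : Type} [CommRing R] {N X : Type} [Fintype N] [DecidableEq N] {blk : N → X}

theorem vmv_smul_single (s r : R) (x y : N) :
    vecMulVec (s • (Pi.single x (1 : R) : N → R)) (Pi.single y r) =
      vecMulVec (Pi.single x 1) (Pi.single y (s * r)) := by
  ext i j
  simp only [vecMulVec_apply, Pi.smul_apply, Pi.single_apply, smul_eq_mul]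
  split_ifs <;> ring

/-- Change of the row. -/
theorem row_step {K : Subgroup (Matrix N N R)ˣ} (hK : blockGroup blk ≤ K) {x0 x1 y0 : N} {r : R}
    (hM : Mem K (E x0 y0 r)) (hb : blk x0 ≠ blk y0) (h1 : blk x1 = blk x0) (h2 : x1 ≠ x0) (s : R) :
    Mem K (E x1 y0 (s * r)) := by
  have hx0 : x0 ≠ y0 := fun e => hb (by rw [e])
  have hx1 : x1 ≠ y0 := fun e => hb (by rw [← h1, e])
  have hh : Mem K (1 + vecMulVec (s • (Pi.single x1 (1 : R) : N → R)) (Pi.single x0 (1 : R))) := by
    obtain ⟨g, hg, e⟩ := mem_block_rank_one (blk := blk)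
      (w := s • (Pi.single x1 (1 : R) : N → R)) (ψ := Pi.single x0 (1 : R))
      (by simp [Pi.single_apply, h2, h2.symm])
      (by
        intro x y hxy
        simp only [Pi.smul_apply, Pi.single_apply, smul_eq_mul]
        by_cases e1 : x = x1
        · by_cases e2 : y = x0
          · exact absurd (by rw [e1, e2, h1]) hxy
          · simp [e2]
        · simp [e1])
    exact ⟨g, hK hg, e⟩
  have := Mem.comm_one (u := Pi.single x0 (1 : R)) (φ := Pi.single y0 r)
    (w := s • (Pi.single x1 (1 : R) : N → R)) (ψ := Pi.single x0 (1 : R)) hM hh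
    (by simp [Pi.single_apply, hx0, hx0.symm]) (by simp [Pi.single_apply, h2, h2.symm])
    (by simp [Pi.single_apply, hx1, hx1.symm])
  rw [E_def, ← vmv_smul_single]
  simpa using this

/-- Change of the column. -/
theorem col_step {K : Subgroup (Matrix N N R)ˣ} (hK : blockGroup blk ≤ K) {x0 y0 y1 : N} {r : R}
    (hM : Mem K (E x0 y0 r)) (hb : blk x0 ≠ blk y0) (h1 : blk y1 = blk y0) (h2 : y1 ≠ y0) :
    Mem K (E x0 y1 (-r)) := by
  have hx0 : x0 ≠ y0 := fun e => hb (by rw [e])
  have hx1 : x0 ≠ y1 := fun e => hb (by rw [← h1, e])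
  have hh : Mem K (1 + vecMulVec (Pi.single y0 (1 : R)) (Pi.single y1 (1 : R))) := by
    obtain ⟨g, hg, e⟩ := mem_block_rank_one (blk := blk)
      (w := Pi.single y0 (1 : R)) (ψ := Pi.single y1 (1 : R))
      (by simp [Pi.single_apply, h2, h2.symm])
      (by
        intro x y hxy
        simp only [Pi.single_apply]
        by_cases e1 : x = y0
        · by_cases e2 : y = y1
          · exact absurd (by rw [e1, e2, h1]) hxy
          · simp [e2]
        · simp [e1])
    exact ⟨g, hK hg, e⟩
  have := Mem.comm_two (u := Pi.single x0 (1 : R)) (φ := Pi.single y0 r)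
    (w := Pi.single y0 (1 : R)) (ψ := Pi.single y1 (1 : R)) hM hh
    (by simp [Pi.single_apply, hx0, hx0.symm]) (by simp [Pi.single_apply, h2, h2.symm])
    (by simp [Pi.single_apply, hx1, hx1.symm])
  have e : (1 : Matrix N N R) - vecMulVec (Pi.single x0 (1 : R))
      ((Pi.single y0 r ⬝ᵥ Pi.single y0 (1 : R)) • (Pi.single y1 (1 : R) : N → R)) =
      E x0 y1 (-r) := by
    rw [E_def]
    ext i j
    simp only [vecMulVec_apply, Matrix.add_apply, Matrix.sub_apply, Pi.smul_apply, Pi.single_apply,
      smul_eq_mul, single_dotProduct]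
    split_ifs <;> simp [sub_eq_add_neg]
  rw [← e]
  exact this

/-- One transvection gives all. -/
theorem all_of_one {K : Subgroup (Matrix N N R)ˣ} (hK : blockGroup blk ≤ K) (hg : Good R blk)
    {x0 y0 : N} {r : R} (hM : Mem K (E x0 y0 r)) (hb : blk x0 ≠ blk y0) (s : R) (x y : N)
    (hx : blk x = blk x0) (hy : blk y = blk y0) : Mem K (E x y (s * r)) := by
  obtain ⟨x1, h1, h2, h3⟩ := hg.other (blk x0) x0 x
  have a1 := row_step hK hM hb h1 h2 s
  have a2 : Mem K (E x y0 (s * r)) := by
    have := row_step hK a1 (by rw [h1]; exact hb) (by rw [h1, hx]) h3.symm 1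
    simpa using this
  obtain ⟨y1, k1, k2, k3⟩ := hg.other (blk y0) y0 y
  have b1 := col_step hK a2 (by rw [hx]; exact hb) k1 k2
  have b2 := col_step hK b1 (by rw [hx, k1]; exact hb) (by rw [k1, hy]) k3.symm
  simpa using b2

/-- The level of an overgroup. -/
def lev (K : Subgroup (Matrix N N R)ˣ) (hK : blockGroup blk ≤ K) (hg : Good R blk) (i j : X)
    (hij : i ≠ j) : Ideal R where
  carrier := {r | ∀ x y, blk x = i → blk y = j → Mem K (E x y r)}
  add_mem' := by
    intro a b ha hb x y hx hy
    have hxy : x ≠ y := fun e => hij (by rw [← hx, ← hy, e])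
    rw [← E_mul hxy]
    exact (ha x y hx hy).mul (hb x y hx hy)
  zero_mem' := by
    intro x y hx hy
    rw [E_zero]
    exact Mem.one K
  smul_mem' := by
    intro c a ha x y hx hy
    rw [smul_eq_mul]
    exact all_of_one hK hg (ha x y hx hy) (by rw [hx, hy]; exact hij) c x y rfl rfl

open Classical in
/-- The net of an overgroup. -/
noncomputable def net (K : Subgroup (Matrix N N R)ˣ) (hK : blockGroup blk ≤ K) (hg : Good R blk)
    (i j : X) : Ideal R :=
  if h : i = j then ⊤ else lev K hK hg i j h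

theorem net_self (K : Subgroup (Matrix N N R)ˣ) (hK : blockGroup blk ≤ K) (hg : Good R blk)
    (i : X) : net K hK hg i i = ⊤ := by
  unfold net; rw [dif_pos rfl]

theorem mem_net {K : Subgroup (Matrix N N R)ˣ} {hK : blockGroup blk ≤ K} {hg : Good R blk}
    {i j : X} (hij : i ≠ j) {r : R} :
    r ∈ net K hK hg i j ↔ ∀ x y, blk x = i → blk y = j → Mem K (E x y r) := by
  unfold net; rw [dif_neg hij]; rfl

theorem net_of_one {K : Subgroup (Matrix N N R)ˣ} {hK : blockGroup blk ≤ K} {hg : Good R blk}
    {x0 y0 : N} (hb : blk x0 ≠ blk y0) {r : R} (h : Mem K (E x0 y0 r)) :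
    r ∈ net K hK hg (blk x0) (blk y0) := by
  rw [mem_net hb]
  intro x y hx hy
  have := all_of_one hK hg h hb 1 x y hx hy
  simpa using this

theorem net_mul (K : Subgroup (Matrix N N R)ˣ) (hK : blockGroup blk ≤ K) (hg : Good R blk)
    (i j k : X) : net K hK hg i j * net K hK hg j k ≤ net K hK hg i k := by
  rw [Ideal.mul_le]
  intro r hr s hs
  by_cases hik : i = k
  · subst hik; rw [net_self]; exact Submodule.mem_top
  by_cases hij : i = j
  · subst hij; exact Ideal.mul_mem_left _ _ hs
  by_cases hjk : j = k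
  · subst hjk; exact Ideal.mul_mem_right _ _ hr
  rw [mem_net hik]
  intro x z hx hz
  obtain ⟨y, hy, -, -⟩ := hg.other j x x
  have h1 := (mem_net hij).1 hr x y hx hy
  have h2 := (mem_net hjk).1 hs y z hy hz
  have hxy : x ≠ y := fun e => hij (by rw [← hx, ← hy, e])
  have hyz : y ≠ z := fun e => hjk (by rw [← hy, ← hz, e])
  have hxz : x ≠ z := fun e => hik (by rw [← hx, ← hz, e])
  have := Mem.comm_one (u := Pi.single y (1 : R)) (φ := Pi.single z s)
    (w := Pi.single x (1 : R)) (ψ := Pi.single y r) h2 h1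
    (by simp [Pi.single_apply, hyz, hyz.symm]) (by simp [Pi.single_apply, hxy, hxy.symm])
    (by simp [Pi.single_apply, hxz, hxz.symm])
  rw [E_def, ← vmv_smul_single]
  simpa using this

/-- Extraction of transvections from rank one unipotents. -/
theorem extract {K : Subgroup (Matrix N N R)ˣ} {hK : blockGroup blk ≤ K} {hg : Good R blk}
    {u φ : N → R} (hM : Mem K (1 + vecMulVec u φ)) (h0 : φ ⬝ᵥ u = 0) {c b' : N}
    (hcb : blk c ≠ blk b') : u c * φ b' ∈ net K hK hg (blk c) (blk b') := by
  obtain ⟨a, b, hab, hac, hbc, ha, hb, hφ⟩ := hg.pigeon φ c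
  -- first step
  set w : N → R := Pi.single b 1 - Pi.single a 1 with hw
  have w_ne : ∀ x, blk x ≠ blk c → w x = 0 := by
    intro x hx
    have h1 : x ≠ b := fun e => hx (by rw [e, hb])
    have h2 : x ≠ a := fun e => hx (by rw [e, ha])
    simp [hw, Pi.single_apply, h1, h2]
  have hh1 : Mem K (1 + vecMulVec w (Pi.single c (1 : R))) := by
    obtain ⟨g, hg, e⟩ := mem_block_rank_one (blk := blk) (w := w) (ψ := Pi.single c (1 : R))
      (by simp [hw, Pi.single_apply, hac.symm, hbc.symm, hac, hbc])
      (by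
        intro x y hxy
        by_cases e1 : y = c
        · rw [w_ne x (by rw [← e1]; exact hxy), zero_mul]
        · simp [Pi.single_apply, e1])
    exact ⟨g, hK hg, e⟩
  have s1 := Mem.comm_one hM hh1 h0 (by simp [hw, Pi.single_apply, hac.symm, hbc.symm, hac, hbc])
    (by simp [hw, dotProduct_sub, hφ])
  -- second step
  obtain ⟨c', k1, k2, -⟩ := hg.other (blk b') b' b'
  have hh2 : Mem K (1 + vecMulVec (Pi.single b' (1 : R)) (Pi.single c' (1 : R))) := by
    obtain ⟨g, hg, e⟩ := mem_block_rank_one (blk := blk) (w := Pi.single b' (1 : R))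
      (ψ := Pi.single c' (1 : R)) (by simp [Pi.single_apply, k2, k2.symm])
      (by
        intro x y hxy
        simp only [Pi.single_apply]
        by_cases e1 : x = b'
        · by_cases e2 : y = c'
          · exact absurd (by rw [e1, e2, k1]) hxy
          · simp [e2]
        · simp [e1])
    exact ⟨g, hK hg, e⟩
  have wc' : w c' = 0 := w_ne c' (by rw [k1]; exact hcb.symm)
  have s2 := Mem.comm_two s1 hh2 (by simp [hw, dotProduct_sub, hφ])
    (by simp [Pi.single_apply, k2, k2.symm]) (by simp [wc'])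
  have s2' : Mem K (1 + vecMulVec w (Pi.single c' (-(u c * φ b')))) := by
    have e : (1 : Matrix N N R) - vecMulVec ((Pi.single c (1 : R) ⬝ᵥ u) • w)
        ((φ ⬝ᵥ Pi.single b' (1 : R)) • (Pi.single c' (1 : R) : N → R)) =
        1 + vecMulVec w (Pi.single c' (-(u c * φ b'))) := by
      ext i j
      simp only [vecMulVec_apply, Matrix.add_apply, Matrix.sub_apply, Pi.smul_apply,
        Pi.single_apply, smul_eq_mul, single_dotProduct, dotProduct_single]
      split_ifs <;> ring
    rw [← e]; exact s2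
  -- third step
  obtain ⟨d, d1, d2, d3⟩ := hg.other (blk c) a b
  have hh3 : Mem K (1 + vecMulVec (Pi.single d (1 : R)) (Pi.single b (1 : R))) := by
    obtain ⟨g, hg, e⟩ := mem_block_rank_one (blk := blk) (w := Pi.single d (1 : R))
      (ψ := Pi.single b (1 : R)) (by simp [Pi.single_apply, d3, d3.symm])
      (by
        intro x y hxy
        simp only [Pi.single_apply]
        by_cases e1 : x = d
        · by_cases e2 : y = b
          · exact absurd (by rw [e1, e2, d1, hb]) hxy
          · simp [e2]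
        · simp [e1])
    exact ⟨g, hK hg, e⟩
  have hdc : d ≠ c' := fun e => hcb (by rw [← d1, e, k1])
  have s3 := Mem.comm_one s2' hh3 (by simp [wc'])
    (by simp [Pi.single_apply, d3, d3.symm]) (by simp [Pi.single_apply, hdc, hdc.symm])
  have wb : w b = 1 := by simp [hw, Pi.single_apply, hab.symm, hab]
  have s3' : Mem K (E d c' (-(u c * φ b'))) := by
    have : (Pi.single b (1 : R) ⬝ᵥ w) = 1 := by simp [wb]
    rw [this, one_smul] at s3
    exact s3
  have fin := net_of_one (hK := hK) (hg := hg) (by rw [d1, k1]; exact hcb) s3'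
  rw [d1, k1] at fin
  simpa using (Ideal.neg_mem_iff _).2 fin

/-- Conjugates of rank one unipotents of the block diagonal group. -/
theorem conj_mem {K : Subgroup (Matrix N N R)ˣ} {hK : blockGroup blk ≤ K} {hg : Good R blk}
    {g : (Matrix N N R)ˣ} (hgK : g ∈ K) {w ψ : N → R} (h : ψ ⬝ᵥ w = 0)
    (hb : ∀ x y, blk x ≠ blk y → w x * ψ y = 0) {x y : N} (hxy : blk x ≠ blk y) :
    ((g : Matrix N N R) *ᵥ w) x * (ψ ᵥ* ((g⁻¹ : (Matrix N N R)ˣ) : Matrix N N R)) y ∈
      net K hK hg (blk x) (blk y) := by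
  have hM : Mem K (1 + vecMulVec ((g : Matrix N N R) *ᵥ w)
      (ψ ᵥ* ((g⁻¹ : (Matrix N N R)ˣ) : Matrix N N R))) := by
    obtain ⟨k, hk, e⟩ := mem_block_rank_one (blk := blk) h hb
    refine ⟨g * k * g⁻¹, K.mul_mem (K.mul_mem hgK (hK hk)) (K.inv_mem hgK), ?_⟩
    rw [Units.val_mul, Units.val_mul, e, mul_add, add_mul, mul_one, Units.mul_inv,
      ← mul_vecMulVec, ← vecMulVec_mul, Matrix.mul_assoc]
  refine extract hM ?_ hxy
  rw [← dotProduct_mulVec, mulVec_mulVec, Units.inv_mul, one_mulVec, h]

/-- Products of entries of `g` and of its inverse. -/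
theorem entries_mem {K : Subgroup (Matrix N N R)ˣ} {hK : blockGroup blk ≤ K} {hg : Good R blk}
    {g : (Matrix N N R)ˣ} (hgK : g ∈ K) {x y b c : N} (hxy : blk x ≠ blk y) (hbc : b ≠ c)
    (hblk : blk b = blk c) :
    (g : Matrix N N R) x b * ((g⁻¹ : (Matrix N N R)ˣ) : Matrix N N R) c y ∈
      net K hK hg (blk x) (blk y) := by
  have := conj_mem (hK := hK) (hg := hg) hgK (w := Pi.single b 1) (ψ := Pi.single c (1 : R))
    (by simp [Pi.single_apply, hbc, hbc.symm])
    (by
      intro x y hxy
      simp only [Pi.single_apply]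
      by_cases e1 : x = b
      · by_cases e2 : y = c
        · exact absurd (by rw [e1, e2, hblk]) hxy
        · simp [e2]
      · simp [e1]) hxy
  simpa using this

end Vale.Agent.P183.H750
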