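import Vale.Agent.P183.H750.Comm
import Vale.Agent.P183.H750.Level

/-!
The ring of an overgroup of `GL(d, A)`; every overgroup is contained in the group of its ring.
-/

namespace Vale.Agent.P183.H750

set_option linter.all false

open Matrix

variable {B : Type} [CommRing B] {N : Type} [Fintype N] [DecidableEq N]

section

variable {A : Subring B} {K : Subgroup (Matrix N N B)ˣ}
  (hK : ringGroup A A ≤ K) (hN : Big B N)

include hK in
theorem E_mem_A {x y : N} (hxy : x ≠ y) {a : B} (ha : a ∈ A) : Mem K (E x y a) := by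
  rw [E_def]
  exact hmem hK (by simp [Pi.single_apply, hxy, hxy.symm]) (single_mem A _ A.one_mem)
    (single_mem A _ ha)

/-- The ring of an overgroup. -/
def ringLev (K : Subgroup (Matrix N N B)ˣ) (hK : ringGroup A A ≤ K) (hN : Big B N) :
    Subring B where
  carrier := {c | ∀ x y : N, x ≠ y → Mem K (E x y c)}
  mul_mem' := by
    intro a b ha hb x y hxy
    obtain ⟨z, hz⟩ := hN.other {x, y} ((Finset.card_le_two).trans (by norm_num))
    simp only [Finset.mem_insert, Finset.mem_singleton, not_or] at hz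
    have := Mem.comm_one (u := Pi.single z (1 : B)) (φ := Pi.single y b)
      (w := Pi.single x (1 : B)) (ψ := Pi.single z a) (hb z y hz.2) (ha x z (Ne.symm hz.1))
      (by simp [Pi.single_apply, hz.2, Ne.symm hz.2])
      (by simp [Pi.single_apply, hz.1, Ne.symm hz.1])
      (by simp [Pi.single_apply, hxy, hxy.symm])
    rw [E_def, ← vmv_smul_single]
    simpa using this
  one_mem' := fun x y hxy => E_mem_A hK hxy A.one_mem
  add_mem' := by
    intro a b ha hb x y hxy
    rw [← E_mul hxy]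
    exact (ha x y hxy).mul (hb x y hxy)
  zero_mem' := by
    intro x y hxy
    rw [E_zero]
    exact Mem.one K
  neg_mem' := by
    intro a ha x y hxy
    exact (ha x y hxy).inv (by rw [E_mul hxy, add_neg_cancel, E_zero])

theorem mem_ringLev {c : B} : c ∈ ringLev K hK hN ↔ ∀ x y : N, x ≠ y → Mem K (E x y c) := Iff.rfl

theorem le_ringLev : A ≤ ringLev K hK hN := fun a ha x y hxy => E_mem_A hK hxy ha

theorem conj_mem' {g : (Matrix N N B)ˣ} (hgK : g ∈ K) {w ψ : N → B} (h : ψ ⬝ᵥ w = 0)
    (hw : ∀ x, w x ∈ A) (hψ : ∀ x, ψ x ∈ A) (x y : N) :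
    ((g : Matrix N N B) *ᵥ w) x * (ψ ᵥ* ((g⁻¹ : (Matrix N N B)ˣ) : Matrix N N B)) y ∈
      ringLev K hK hN := by
  have hM : Mem K (1 + vecMulVec ((g : Matrix N N B) *ᵥ w)
      (ψ ᵥ* ((g⁻¹ : (Matrix N N B)ˣ) : Matrix N N B))) := by
    obtain ⟨k, hk, e⟩ := hmem hK h hw hψ
    refine ⟨g * k * g⁻¹, K.mul_mem (K.mul_mem hgK hk) (K.inv_mem hgK), ?_⟩
    rw [Units.val_mul, Units.val_mul, e, mul_add, add_mul, mul_one, Units.mul_inv,
      ← mul_vecMulVec, ← vecMulVec_mul, Matrix.mul_assoc]
  intro p q hpq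
  refine extract' hK hN hM ?_ x y p q hpq
  rw [← dotProduct_mulVec, mulVec_mulVec, Units.inv_mul, one_mulVec, h]

theorem entries_mem' {g : (Matrix N N B)ˣ} (hgK : g ∈ K) (x y b c : N) :
    (g : Matrix N N B) x b * ((g⁻¹ : (Matrix N N B)ˣ) : Matrix N N B) c y ∈
      ringLev K hK hN := by
  have h1 : ∀ b c, b ≠ c → (g : Matrix N N B) x b *
      ((g⁻¹ : (Matrix N N B)ˣ) : Matrix N N B) c y ∈ ringLev K hK hN := by
    intro b c hbc
    have := conj_mem' hK hN hgK (w := Pi.single b 1) (ψ := Pi.single c (1 : B))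
      (by simp [Pi.single_apply, hbc, hbc.symm]) (single_mem A _ A.one_mem)
      (single_mem A _ A.one_mem) x y
    simpa using this
  by_cases hbc : b = c
  swap
  · exact h1 b c hbc
  subst hbc
  have h2 : ∀ b', (g : Matrix N N B) x b * ((g⁻¹ : (Matrix N N B)ˣ) : Matrix N N B) b y -
      (g : Matrix N N B) x b' * ((g⁻¹ : (Matrix N N B)ˣ) : Matrix N N B) b' y ∈
      ringLev K hK hN := by
    intro b'
    by_cases hb : b' = b
    · rw [hb, sub_self]; exact (ringLev K hK hN).zero_mem
    have := conj_mem' hK hN hgK (w := Pi.single b 1 + Pi.single b' 1)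
      (ψ := Pi.single b (1 : B) - Pi.single b' 1)
      (by simp [Pi.single_apply, hb, Ne.symm hb])
      (fun x => A.add_mem (single_mem A _ A.one_mem x) (single_mem A _ A.one_mem x))
      (fun x => A.sub_mem (single_mem A _ A.one_mem x) (single_mem A _ A.one_mem x)) x y
    rw [mulVec_add, sub_vecMul] at this
    simp only [Pi.add_apply, Pi.sub_apply, mulVec_single_one, single_one_vecMul, row_apply,
      col_apply] at this
    have e1 := h1 b b' (Ne.symm hb)
    have e2 := h1 b' b hb
    have := (ringLev K hK hN).add_mem ((ringLev K hK hN).sub_mem this e2) e1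
    convert this using 1
    ring
  have h3 := (ringLev K hK hN).sum_mem (t := Finset.univ) (fun b' _ => h2 b')
  rw [Finset.sum_sub_distrib, Finset.sum_const, Finset.card_univ, nsmul_eq_mul, hN.one, one_mul,
    ← Matrix.mul_apply, Units.mul_inv] at h3
  have h4 : (1 : Matrix N N B) x y ∈ ringLev K hK hN := by
    by_cases h : x = y
    · subst h; rw [Matrix.one_apply_eq]; exact (ringLev K hK hN).one_mem
    · rw [Matrix.one_apply_ne h]; exact (ringLev K hK hN).zero_mem
  have := (ringLev K hK hN).add_mem h3 h4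
  rwa [sub_add_cancel] at this

end

/-- Fractional ideals: the exponent is congruent to one. -/
def PowOne (B : Type) [CommRing B] (n : ℕ) : Prop :=
  ∀ (C : Subring B) (I J : Submodule C B), I * J = 1 → I ^ n = I

theorem prod_mem_pow {C : Subring B} {I : Submodule C B} {ι : Type} (s : Finset ι) (f : ι → B)
    (h : ∀ i ∈ s, f i ∈ I) : ∏ i ∈ s, f i ∈ I ^ s.card := by
  classical
  induction s using Finset.induction_on with
  | empty => simp
  | insert a s ha ih =>
    rw [Finset.prod_insert ha, Finset.card_insert_of_notMem ha, pow_succ']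
    exact Submodule.mul_mem_mul (h a (Finset.mem_insert_self _ _))
      (ih (fun i hi => h i (Finset.mem_insert_of_mem hi)))

theorem entries_in {C : Subring B} (hp : PowOne B (Fintype.card N)) {g : (Matrix N N B)ˣ}
    (hg : ∀ x y b c, (g : Matrix N N B) x b *
      ((g⁻¹ : (Matrix N N B)ˣ) : Matrix N N B) c y ∈ C)
    (hd : (g : Matrix N N B).det ∈ C) (hd' : ((g⁻¹ : (Matrix N N B)ˣ) : Matrix N N B).det ∈ C)
    (hne : Nonempty N) (x y : N) : (g : Matrix N N B) x y ∈ C := by
  let I : Submodule C B := Submodule.span C (Set.range (fun p : N × N =>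
    (g : Matrix N N B) p.1 p.2))
  let J : Submodule C B := Submodule.span C (Set.range (fun p : N × N =>
    ((g⁻¹ : (Matrix N N B)ˣ) : Matrix N N B) p.1 p.2))
  have hI : ∀ x y, (g : Matrix N N B) x y ∈ I := fun x y =>
    Submodule.subset_span ⟨(x, y), rfl⟩
  have hJ : ∀ x y, ((g⁻¹ : (Matrix N N B)ˣ) : Matrix N N B) x y ∈ J := fun x y =>
    Submodule.subset_span ⟨(x, y), rfl⟩
  have hIJ : I * J = 1 := by
    apply le_antisymm
    · rw [Submodule.span_mul_span, Submodule.span_le]
      rintro _ ⟨_, ⟨p, rfl⟩, _, ⟨q, rfl⟩, rfl⟩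
      exact Submodule.mem_one.2 ⟨⟨_, hg p.1 q.2 p.2 q.1⟩, rfl⟩
    · rw [Submodule.one_le]
      obtain ⟨x⟩ := hne
      have : (1 : B) = ∑ z, (g : Matrix N N B) x z *
          ((g⁻¹ : (Matrix N N B)ˣ) : Matrix N N B) z x := by
        rw [← Matrix.mul_apply, Units.mul_inv, Matrix.one_apply_eq]
      rw [this]
      exact Submodule.sum_mem _ (fun z _ => Submodule.mul_mem_mul (hI x z) (hJ z x))
  have hJI : J * I = 1 := by rw [mul_comm]; exact hIJ
  have one_in : ∀ (M : Matrix N N B) (L : Submodule C B), (∀ x y, M x y ∈ L) →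
      L ^ Fintype.card N = L → (∃ d ∈ C, d * M.det = 1) → (1 : B) ∈ L := by
    intro M L hM hL ⟨d, hd, e⟩
    have h1 : M.det ∈ L := by
      rw [← hL, Matrix.det_apply]
      refine Submodule.sum_mem _ (fun σ _ => ?_)
      have h2 := prod_mem_pow Finset.univ (fun i => M (σ i) i) (fun i _ => hM (σ i) i)
      rw [Finset.card_univ] at h2
      rcases Int.units_eq_one_or (Equiv.Perm.sign σ) with h | h
      · rw [h, one_smul]; exact h2
      · rw [h, Units.neg_smul, one_smul]; exact Submodule.neg_mem _ h2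
    have h2 := L.smul_mem ⟨d, hd⟩ h1
    have h3 : (⟨d, hd⟩ : C) • M.det = 1 := e
    rwa [h3] at h2
  have hdd : (g : Matrix N N B).det * ((g⁻¹ : (Matrix N N B)ˣ) : Matrix N N B).det = 1 := by
    rw [← Matrix.det_mul, Units.mul_inv, Matrix.det_one]
  have h1J : (1 : B) ∈ J := one_in _ J hJ (hp C J I hJI) ⟨_, hd, hdd⟩
  have h : (g : Matrix N N B) x y * 1 ∈ I * J := Submodule.mul_mem_mul (hI x y) h1J
  rw [mul_one, hIJ] at h
  obtain ⟨c, hc⟩ := Submodule.mem_one.1 h
  rw [← hc]
  exact c.2

theorem le_ringGroup {A : Subring B} {K : Subgroup (Matrix N N B)ˣ}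
    (hK : ringGroup A A ≤ K) (hN : Big B N) (hp : PowOne B (Fintype.card N))
    (hKG : K ≤ ringGroup A ⊤) : K ≤ ringGroup A (ringLev K hK hN) := by
  intro g hgK
  have hne : Nonempty N := by
    obtain ⟨a, -⟩ := hN.other ∅ (by simp)
    exact ⟨a⟩
  have hG := hKG hgK
  have hle := le_ringLev hK hN
  refine ⟨⟨fun x y => ?_, fun x y => ?_⟩, hG.2⟩
  · exact entries_in hp (fun x y b c => entries_mem' hK hN hgK x y b c) (hle hG.2.1)
      (hle hG.2.2) hne x y
  · exact entries_in hp (g := g⁻¹) (fun x y b c => entries_mem' hK hN (K.inv_mem hgK) x y b c)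
      (hle hG.2.2) (by rw [inv_inv]; exact hle hG.2.1) hne x y

end Vale.Agent.P183.H750
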