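import Vale.Agent.P183.H750.Blocks
import Vale.Agent.P183.H996.Dual
import Vale.Agent.P183.Bdl.B3
import Mathlib.Algebra.Group.Subgroup.Ker
import Mathlib.Algebra.Ring.Subring.Basic
import Mathlib.Algebra.Field.ZMod

/-!
Subrings of matrix rings which contain the diagonal matrices; preorders.
-/

namespace Vale.Agent.P183.H750

set_option linter.all false

open Matrix Vale.Agent.P183.H996

/-- The upper part of an interval. -/
theorem gi_upper {L : Type} [PartialOrder L] (h : GroupInterval L) (a : L) :
    GroupInterval {x : L // a ≤ x} := by
  obtain ⟨G, i1, i2, H, ⟨e⟩⟩ := h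
  refine ⟨G, i1, i2, (e a).1, ⟨?_⟩⟩
  exact
    { toFun := fun x => ⟨(e x.1).1, e.monotone x.2⟩
      invFun := fun K => ⟨e.symm ⟨K.1, (e a).2.trans K.2⟩, by
        rw [← e.le_iff_le, OrderIso.apply_symm_apply]; exact K.2⟩
      left_inv := fun x => Subtype.ext (by simp)
      right_inv := fun K => Subtype.ext (by simp)
      map_rel_iff' := by
        intro x y
        exact e.le_iff_le }

/-- The lower part of an interval. -/
theorem gi_lower {L : Type} [PartialOrder L] (h : GroupInterval L) (b : L) :
    GroupInterval {x : L // x ≤ b} := by
  obtain ⟨G, i1, i2, H, ⟨e⟩⟩ := h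
  let Kb : Subgroup G := (e b).1
  have hf : Finite Kb := Subtype.finite
  let f := Subgroup.MapSubtype.orderIso Kb
  have hHK : H ≤ Kb := (e b).2
  have hmem : ∀ W : Subgroup Kb, H.subgroupOf Kb ≤ W ↔ H ≤ (f W).1 := by
    intro W
    constructor
    · intro h x hx
      exact ⟨⟨x, hHK hx⟩, h hx, rfl⟩
    · intro h x hx
      obtain ⟨y, hy, e⟩ := h hx
      have : y = x := Subtype.ext e
      rw [← this]; exact hy
  refine ⟨Kb, inferInstance, hf, H.subgroupOf Kb, ⟨?_⟩⟩
  exact
    { toFun := fun x => ⟨f.symm ⟨(e x.1).1, e.monotone x.2⟩, by
        rw [hmem, OrderIso.apply_symm_apply]; exact (e x.1).2⟩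
      invFun := fun W => ⟨e.symm ⟨(f W.1).1, (hmem W.1).1 W.2⟩, by
        rw [← e.le_iff_le, OrderIso.apply_symm_apply]; exact (f W.1).2⟩
      left_inv := fun x => Subtype.ext (by simp)
      right_inv := fun W => Subtype.ext (by simp)
      map_rel_iff' := by
        intro x y
        change f.symm _ ≤ f.symm _ ↔ _
        rw [f.symm.le_iff_le]
        exact e.le_iff_le }

/-- Intervals of intervals. -/
theorem gi_interval {L : Type} [PartialOrder L] (h : GroupInterval L) (a b : L) (hab : a ≤ b) :
    GroupInterval {x : L // a ≤ x ∧ x ≤ b} := by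
  have h1 := gi_lower (gi_upper h a) ⟨b, hab⟩
  refine GroupInterval.of_iso ?_ h1
  exact
    { toFun := fun x => ⟨⟨x.1, x.2.1⟩, x.2.2⟩
      invFun := fun x => ⟨x.1.1, x.1.2, x.2⟩
      left_inv := fun x => rfl
      right_inv := fun x => rfl
      map_rel_iff' := by intro x y; exact Iff.rfl }

theorem GroupInterval.rep' {L : Type} [LE L] (h : GroupInterval L) : Representable L := by
  obtain ⟨G, i1, i2, H, ⟨e⟩⟩ := h
  exact Representable.of_iso e (representable_interval G H)

variable {R X : Type} [CommRing R] [Fintype X] [DecidableEq X]

/-- Subrings of the matrix ring which contain the diagonal matrices are nets. -/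
noncomputable def subIso :
    {S : Subring (Matrix X X R) // ∀ d : X → R, Matrix.diagonal d ∈ S} ≃o NetT X R where
  toFun S := ⟨fun i j =>
    { carrier := {r | Matrix.single i j r ∈ S.1}
      add_mem' := fun {a b} ha hb => by
        change Matrix.single i j (a + b) ∈ S.1
        rw [Matrix.single_add]; exact S.1.add_mem ha hb
      zero_mem' := by
        change Matrix.single i j (0 : R) ∈ S.1
        rw [Matrix.single_zero]; exact S.1.zero_mem
      smul_mem' := fun c a ha => by
        change Matrix.single i j (c * a) ∈ S.1
        have : Matrix.single i j (c * a) = Matrix.diagonal (fun _ => c) * Matrix.single i j a := by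
          ext p q
          rw [Matrix.diagonal_mul]
          simp only [Matrix.single_apply]
          split_ifs <;> simp
        rw [this]
        exact S.1.mul_mem (S.2 _) ha }, fun i => by
      rw [Ideal.eq_top_iff_one]
      change Matrix.single i i (1 : R) ∈ S.1
      have : Matrix.single i i (1 : R) = Matrix.diagonal (Pi.single i 1) := by
        rw [Matrix.diagonal_single]
      rw [this]; exact S.2 _, fun i j k => by
      rw [Ideal.mul_le]
      intro r hr s hs
      change Matrix.single i k (r * s) ∈ S.1
      have e : Matrix.single i j r * Matrix.single j k s = (Matrix.single i k (r * s) :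
          Matrix X X R) := by simp
      rw [← e]
      exact S.1.mul_mem hr hs⟩
  invFun σ := ⟨
    { carrier := {M | ∀ i j, M i j ∈ σ.1 i j}
      mul_mem' := fun {A B} hA hB i j => by
        rw [Matrix.mul_apply]
        exact Ideal.sum_mem _ (fun k _ => σ.2.2 _ _ _ (Ideal.mul_mem_mul (hA i k) (hB k j)))
      one_mem' := fun i j => by
        by_cases h : i = j
        · subst h; rw [σ.2.1]; exact Submodule.mem_top
        · rw [Matrix.one_apply_ne h]; exact Ideal.zero_mem _
      add_mem' := fun {A B} hA hB i j => Ideal.add_mem _ (hA i j) (hB i j)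
      zero_mem' := fun i j => Ideal.zero_mem _
      neg_mem' := fun {A} hA i j => (Ideal.neg_mem_iff _).2 (hA i j) }, fun d i j => by
      by_cases h : i = j
      · subst h; rw [σ.2.1]; exact Submodule.mem_top
      · rw [Matrix.diagonal_apply_ne _ h]; exact Ideal.zero_mem _⟩
  left_inv S := by
    apply Subtype.ext
    ext M
    constructor
    · intro h
      rw [Matrix.matrix_eq_sum_single M]
      exact S.1.sum_mem (fun i _ => S.1.sum_mem (fun j _ => h i j))
    · intro h i j
      change Matrix.single i j (M i j) ∈ S.1
      have : Matrix.single i j (M i j) = Matrix.diagonal (Pi.single i 1) * M *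
          Matrix.diagonal (Pi.single j 1) := by
        ext p q
        rw [Matrix.mul_diagonal, Matrix.diagonal_mul]
        simp only [Matrix.single_apply, Pi.single_apply]
        by_cases h1 : p = i
        · by_cases h2 : q = j
          · subst h1; subst h2; simp
          · simp [h2, Ne.symm h2]
        · simp [h1, Ne.symm h1]
      rw [this]
      exact S.1.mul_mem (S.1.mul_mem (S.2 _) h) (S.2 _)
  right_inv σ := by
    apply Subtype.ext
    funext i j
    ext r
    change (∀ p q, Matrix.single i j r p q ∈ σ.1 p q) ↔ r ∈ σ.1 i j
    constructor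
    · intro h
      have := h i j
      rwa [Matrix.single_apply_same] at this
    · intro h p q
      rw [Matrix.single_apply]
      split_ifs with hpq
      · rw [← hpq.1, ← hpq.2]; exact h
      · exact Ideal.zero_mem _
  map_rel_iff' := by
    intro S T
    constructor
    · intro h M hM
      rw [Matrix.matrix_eq_sum_single M]
      refine T.1.sum_mem (fun i _ => T.1.sum_mem (fun j _ => h i j ?_))
      change Matrix.single i j (M i j) ∈ S.1
      have : Matrix.single i j (M i j) = Matrix.diagonal (Pi.single i 1) * M *
          Matrix.diagonal (Pi.single j 1) := by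
        ext p q
        rw [Matrix.mul_diagonal, Matrix.diagonal_mul]
        simp only [Matrix.single_apply, Pi.single_apply]
        by_cases h1 : p = i
        · by_cases h2 : q = j
          · subst h1; subst h2; simp
          · simp [h2, Ne.symm h2]
        · simp [h1, Ne.symm h1]
      rw [this]
      exact S.1.mul_mem (S.1.mul_mem (S.2 _) hM) (S.2 _)
    · intro h i j r hr
      exact h hr

/-- Nets form an interval in the subgroup lattice of a finite group. -/
theorem gi_net (X R : Type) [Finite X] [CommRing R] [Finite R] : GroupInterval (NetT X R) := by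
  obtain ⟨N, i1, i2, blk, hg⟩ := good_exists R X
  exact ⟨(Matrix N N R)ˣ, inferInstance, inferInstance, blockGroup blk, ⟨netIso hg⟩⟩

theorem gi_sub [Finite R] :
    GroupInterval {S : Subring (Matrix X X R) // ∀ d : X → R, Matrix.diagonal d ∈ S} :=
  GroupInterval.of_iso subIso (gi_net X R)

/-- Preorders on a finite set are nets over a field. -/
noncomputable def preIso (X : Type) (k : Type) [Field k] :
    {r : X → X → Prop // (∀ x, r x x) ∧ ∀ x y z, r x y → r y z → r x z} ≃o NetT X k := by
  classical
  exact
  { toFun := fun r => ⟨fun x y => if r.1 x y then ⊤ else ⊥, fun x => if_pos (r.2.1 x),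
      fun x y z => by
        dsimp only
        by_cases h1 : r.1 x y
        · by_cases h2 : r.1 y z
          · rw [if_pos (r.2.2 _ _ _ h1 h2)]; exact le_top
          · rw [if_neg h2, Ideal.mul_bot]; exact bot_le
        · rw [if_neg h1, Ideal.bot_mul]; exact bot_le⟩
    invFun := fun σ => ⟨fun x y => σ.1 x y = ⊤, σ.2.1, fun x y z h1 h2 => by
        have := σ.2.2 x y z
        rw [h1, h2, Ideal.top_mul] at this
        exact top_le_iff.1 this⟩
    left_inv := fun r => Subtype.ext (by
        funext x y
        by_cases h : r.1 x y <;> simp [h])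
    right_inv := fun σ => Subtype.ext (by
        funext x y
        rcases Ideal.eq_bot_or_top (σ.1 x y) with h | h <;> simp [h])
    map_rel_iff' := by
      intro r s
      constructor
      · intro h x y hr
        by_contra hs
        have := h x y
        simp only [Equiv.coe_fn_mk, if_pos hr, if_neg hs] at this
        exact bot_ne_top (le_bot_iff.1 this).symm
      · intro h x y
        by_cases hr : r.1 x y
        · simp [hr, h x y hr]
        · simp [hr] }

theorem gi_preorders (X : Type) [Finite X] :
    GroupInterval {r : X → X → Prop // (∀ x, r x x) ∧ ∀ x y z, r x y → r y z → r x z} := by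
  haveI : Fact (Nat.Prime 2) := ⟨Nat.prime_two⟩
  exact GroupInterval.of_iso (preIso X (ZMod 2)) (gi_net X (ZMod 2))

end Vale.Agent.P183.H750
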