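import Vale.Agent.P183.H750.Comm2
import Vale.Agent.P183.H750.Sub

/-!
The group of a ring is generated by transvections and `GL(d, A)`; the lattice of intermediate rings.
-/

namespace Vale.Agent.P183.H750

set_option linter.all false

open Matrix Vale.Agent.P183.H996

variable {B : Type} [CommRing B] {N : Type} [Fintype N] [DecidableEq N]

theorem row_gen' {C : Subring B} {K : Subgroup (Matrix N N B)ˣ}
    (hG : ∀ x y : N, x ≠ y → ∀ c ∈ C, Mem K (E x y c)) (x : N) (ρ : N → B)
    (hρ : ∀ y, ρ y ∈ C) (h0 : ρ x = 0) :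
    Mem K (1 + vecMulVec (Pi.single x 1) ρ) := by
  have key : ∀ T : Finset N, x ∉ T →
      Mem K (1 + vecMulVec (Pi.single x 1) (∑ y ∈ T, Pi.single y (ρ y))) := by
    intro T
    induction T using Finset.induction_on with
    | empty => intro _; simpa using Mem.one K
    | insert a T ha ih =>
      intro hx
      have hxa : x ≠ a := fun e => hx (by rw [e]; exact Finset.mem_insert_self _ _)
      have hxT : x ∉ T := fun e => hx (Finset.mem_insert_of_mem e)
      rw [Finset.sum_insert ha]
      have h1 := (hG x a hxa (ρ a) (hρ a)).mul (ih hxT)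
      have e : E x a (ρ a) * (1 + vecMulVec (Pi.single x (1 : B)) (∑ y ∈ T, Pi.single y (ρ y))) =
          1 + vecMulVec (Pi.single x (1 : B)) (Pi.single a (ρ a) + ∑ y ∈ T, Pi.single y (ρ y)) := by
        rw [E_def, mul_add, add_mul, add_mul, vecMulVec_mul_vecMulVec, vecMulVec_add]
        have : (Pi.single a (ρ a) ⬝ᵥ Pi.single x (1 : B)) = 0 := by
          simp [Pi.single_apply, hxa, hxa.symm]
        rw [this, zero_smul]
        have z : vecMulVec (Pi.single x (1 : B) : N → B) (0 : N → B) = 0 := by
          ext i j; simp [vecMulVec_apply]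
        rw [z]
        simp only [mul_one, one_mul, add_zero]
        abel
      rw [← e]; exact h1
  have := key (Finset.univ.erase x) (by simp)
  have e : (∑ y ∈ Finset.univ.erase x, (Pi.single y (ρ y) : N → B)) = ρ := by
    have h1 := Finset.univ_sum_single ρ
    rw [← Finset.add_sum_erase _ _ (Finset.mem_univ x), h0] at h1
    simpa using h1
  rw [e] at this
  exact this

theorem col_gen' {C : Subring B} {K : Subgroup (Matrix N N B)ˣ}
    (hG : ∀ x y : N, x ≠ y → ∀ c ∈ C, Mem K (E x y c)) (x : N) (κ : N → B)
    (hκ : ∀ y, κ y ∈ C) (h0 : κ x = 0) :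
    Mem K (1 + vecMulVec κ (Pi.single x 1)) := by
  have key : ∀ T : Finset N, x ∉ T →
      Mem K (1 + vecMulVec (∑ y ∈ T, Pi.single y (κ y)) (Pi.single x 1)) := by
    intro T
    induction T using Finset.induction_on with
    | empty => intro _; simpa using Mem.one K
    | insert a T ha ih =>
      intro hx
      have hxa : x ≠ a := fun e => hx (by rw [e]; exact Finset.mem_insert_self _ _)
      have hxT : x ∉ T := fun e => hx (Finset.mem_insert_of_mem e)
      rw [Finset.sum_insert ha]
      have h1 := (ih hxT).mul (hG a x hxa.symm (κ a) (hκ a))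
      have z0 : vecMulVec (Pi.single a (1 : B) : N → B) (Pi.single x (κ a) : N → B) =
          vecMulVec (Pi.single a (κ a)) (Pi.single x 1) := by
        ext i j
        simp only [vecMulVec_apply, Pi.single_apply]
        split_ifs <;> simp
      have e : (1 + vecMulVec (∑ y ∈ T, Pi.single y (κ y)) (Pi.single x (1 : B))) * E a x (κ a) =
          1 + vecMulVec (Pi.single a (κ a) + ∑ y ∈ T, Pi.single y (κ y)) (Pi.single x (1 : B)) := by
        rw [E_def, z0]
        have ex : ∀ P Q : Matrix N N B, (1 + P) * (1 + Q) = 1 + (Q + P) + P * Q := by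
          intro P Q; noncomm_ring
        rw [ex, vecMulVec_mul_vecMulVec, ← add_vecMulVec]
        have : (Pi.single x (1 : B) ⬝ᵥ (Pi.single a (κ a) : N → B)) = 0 := by
          simp [Pi.single_apply, hxa, hxa.symm]
        rw [this, zero_smul]
        have z : vecMulVec (∑ y ∈ T, Pi.single y (κ y) : N → B) (0 : N → B) = 0 := by
          ext i j; simp [vecMulVec_apply]
        rw [z, add_zero]
      rw [← e]; exact h1
  have := key (Finset.univ.erase x) (by simp)
  have e : (∑ y ∈ Finset.univ.erase x, (Pi.single y (κ y) : N → B)) = κ := by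
    have h1 := Finset.univ_sum_single κ
    rw [← Finset.add_sum_erase _ _ (Finset.mem_univ x), h0] at h1
    simpa using h1
  rw [e] at this
  exact this

theorem col_mul_gen (M : Matrix N N B) (x : N) (κ : N → B) (p q : N) :
    (M * (1 + vecMulVec κ (Pi.single x 1))) p q =
      M p q + (∑ z, M p z * κ z) * (Pi.single x (1 : B) : N → B) q := by
  rw [mul_add, mul_one, Matrix.add_apply, mul_vecMulVec, vecMulVec_apply]
  rfl

theorem E_mem_ring {A C : Subring B} {x y : N} (hxy : x ≠ y) {c : B} (hc : c ∈ C) :
    Mem (ringGroup (N := N) A C) (E x y c) := by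
  rw [E_def]
  exact mem_ring_rank_one (by simp [Pi.single_apply, hxy, hxy.symm])
    (fun p q => C.mul_mem (single_mem C _ C.one_mem p) (single_mem C _ hc q))

theorem elim' [Finite B] {A C : Subring B} {K : Subgroup (Matrix N N B)ˣ}
    (hK : ringGroup A A ≤ K) (hG : ∀ x y : N, x ≠ y → ∀ c ∈ C, Mem K (E x y c)) (n : ℕ) :
    ∀ S : Finset N, Sᶜ.card = n + 1 → ∀ M : Matrix N N B, Mem (ringGroup A C) M →
      Triv S M → (∀ s ∈ S, M s s = 1) → Mem K M := by
  have hN : ∀ x y : N, x ≠ y → ∀ c ∈ C, Mem (ringGroup (N := N) A C) (E x y c) :=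
    fun x y hxy c hc => E_mem_ring hxy hc
  induction n with
  | zero =>
    intro S hS M hM hT h11
    obtain ⟨x0, hx0⟩ := Finset.card_eq_one.1 hS
    have hmemS : ∀ s, s ≠ x0 → s ∈ S := by
      intro s hs
      by_contra h
      have : s ∈ Sᶜ := Finset.mem_compl.2 h
      rw [hx0, Finset.mem_singleton] at this
      exact hs this
    obtain ⟨g, hg, rfl⟩ := hM
    set δ := (g : Matrix N N B) x0 x0 with hδ
    have e : (g : Matrix N N B) = Matrix.diagonal (Function.update (1 : N → B) x0 δ) := by
      ext x y
      by_cases hxy : x = y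
      · subst hxy
        rw [Matrix.diagonal_apply_eq]
        by_cases hx : x = x0
        · subst hx; rw [Function.update_self]
        · rw [Function.update_of_ne hx, h11 x (hmemS x hx)]; rfl
      · rw [Matrix.diagonal_apply_ne _ hxy]
        by_cases hx : x = x0
        · have hy : y ≠ x0 := fun h => hxy (by rw [hx, h])
          exact (hT y (hmemS y hy) x hxy).2
        · exact (hT x (hmemS x hx) y (Ne.symm hxy)).1
    have hdet : (g : Matrix N N B).det = δ := by
      rw [e, Matrix.det_diagonal, Finset.prod_update_of_mem (Finset.mem_univ _)]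
      simp
    set δ' := ((g⁻¹ : (Matrix N N B)ˣ) : Matrix N N B).det with hδ'
    have hdd : δ * δ' = 1 := by
      rw [← hdet, hδ', ← Matrix.det_mul, Units.mul_inv, Matrix.det_one]
    have hinv : ((g⁻¹ : (Matrix N N B)ˣ) : Matrix N N B) =
        Matrix.diagonal (Function.update (1 : N → B) x0 δ') := by
      apply Units.inv_eq_of_mul_eq_one_right
      rw [e, Matrix.diagonal_mul_diagonal, ← Matrix.diagonal_one]
      congr 1
      funext i
      by_cases hi : i = x0
      · subst hi; rw [Function.update_self, Function.update_self, hdd]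
      · rw [Function.update_of_ne hi, Function.update_of_ne hi]; simp
    have hδA : δ ∈ A := by rw [← hdet]; exact hg.2.1
    have hδA' : δ' ∈ A := hg.2.2
    have hdA : ∀ η ∈ A, ∀ x y : N,
        (Matrix.diagonal (Function.update (1 : N → B) x0 η) : Matrix N N B) x y ∈ A := by
      intro η hη x y
      by_cases hxy : x = y
      · subst hxy
        rw [Matrix.diagonal_apply_eq]
        by_cases hx : x = x0
        · subst hx; rw [Function.update_self]; exact hη
        · rw [Function.update_of_ne hx]; exact A.one_mem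
      · rw [Matrix.diagonal_apply_ne _ hxy]; exact A.zero_mem
    refine ⟨g, hK ⟨⟨fun x y => ?_, fun x y => ?_⟩, hg.2⟩, rfl⟩
    · rw [e]; exact hdA δ hδA x y
    · rw [hinv]; exact hdA δ' hδA' x y
  | succ n ih =>
    intro S hS M hM hT h11
    have h2 : 1 < Sᶜ.card := by omega
    obtain ⟨x, hx, z, hz, hxz⟩ := Finset.one_lt_card.1 h2
    rw [Finset.mem_compl] at hx hz
    -- first: make the entry at `x` a unit of `C`
    have stepA : ∃ A' : Matrix N N B, Mem K A' ∧ Mem (ringGroup A C) A' ∧
        (∃ v ∈ C, v * (M * A') x x = 1) ∧ Triv S (M * A') ∧ (∀ s ∈ S, (M * A') s s = 1) := by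
      obtain ⟨g, hgN, rfl⟩ := hM
      have h : ∑ z, (g : Matrix N N B) x z * ((g⁻¹ : (Matrix N N B)ˣ) : Matrix N N B) z x = 1 := by
        rw [← Matrix.mul_apply, Units.mul_inv, Matrix.one_apply_eq]
      rw [← Finset.add_sum_erase _ _ (Finset.mem_univ x)] at h
      let a : C := ⟨(g : Matrix N N B) x x, hgN.1.1 x x⟩
      let b : C := ⟨∑ z ∈ Finset.univ.erase x, (g : Matrix N N B) x z *
          ((g⁻¹ : (Matrix N N B)ˣ) : Matrix N N B) z x,
          C.sum_mem (fun z _ => C.mul_mem (hgN.1.1 x z) (hgN.1.2 z x))⟩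
      let r : C := ⟨((g⁻¹ : (Matrix N N B)ˣ) : Matrix N N B) x x, hgN.1.2 x x⟩
      haveI : Finite C := Subtype.finite
      obtain ⟨t, ht⟩ := stable_range (a := a) (b := b) (r := r) (s := 1) (by
        apply Subtype.ext
        change ((g⁻¹ : (Matrix N N B)ˣ) : Matrix N N B) x x * (g : Matrix N N B) x x + 1 *
          (∑ z ∈ Finset.univ.erase x, (g : Matrix N N B) x z *
          ((g⁻¹ : (Matrix N N B)ˣ) : Matrix N N B) z x) = 1
        rw [one_mul, mul_comm]; exact h)
      obtain ⟨v, hv⟩ := ht.exists_left_inv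
      let κ : N → B := fun z => if z = x ∨ z ∈ S then 0 else
        ((g⁻¹ : (Matrix N N B)ˣ) : Matrix N N B) z x * t
      have hκ : ∀ z, κ z ∈ C := by
        intro z
        by_cases hz : z = x ∨ z ∈ S
        · simp only [κ, hz, if_true]; exact C.zero_mem
        · simp only [κ, hz, if_false]
          exact C.mul_mem (hgN.1.2 z x) t.2
      have hκx : κ x = 0 := by simp [κ]
      refine ⟨1 + vecMulVec κ (Pi.single x 1), col_gen' hG x κ hκ hκx, col_gen' hN x κ hκ hκx,
        ⟨v, v.2, ?_⟩, ?_, ?_⟩
      · rw [col_mul_gen]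
        have e : (∑ z, (g : Matrix N N B) x z * κ z) = t * ∑ z ∈ Finset.univ.erase x,
            (g : Matrix N N B) x z * ((g⁻¹ : (Matrix N N B)ˣ) : Matrix N N B) z x := by
          rw [← Finset.add_sum_erase _ _ (Finset.mem_univ x), hκx, mul_zero, zero_add,
            Finset.mul_sum]
          refine Finset.sum_congr rfl (fun z hz => ?_)
          have hzx : z ≠ x := (Finset.mem_erase.1 hz).1
          by_cases hzS : z ∈ S
          · rw [(hT z hzS x (fun e => hzx e.symm)).2]; simp
          · simp only [κ, hzx, hzS, or_self, if_false]; ring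
        rw [e]
        have h5 := congrArg Subtype.val hv
        rw [Pi.single_eq_same, mul_one]
        exact h5
      · intro s hs y hy
        have hsx : s ≠ x := fun e => hx (by rw [← e]; exact hs)
        have hz : (∑ z, (g : Matrix N N B) s z * κ z) = 0 := by
          refine Finset.sum_eq_zero (fun z _ => ?_)
          by_cases hzs : z = s
          · have : κ z = 0 := by simp [κ, hzs, hs]
            rw [this, mul_zero]
          · rw [(hT s hs z hzs).1, zero_mul]
        refine ⟨?_, ?_⟩
        · rw [col_mul_gen, (hT s hs y hy).1, hz]; simp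
        · rw [col_mul_gen, (hT s hs y hy).2]
          simp [Pi.single_apply, hsx]
      · intro s hs
        have hsx : s ≠ x := fun e => hx (by rw [← e]; exact hs)
        rw [col_mul_gen, h11 s hs]
        simp [Pi.single_apply, hsx]
    obtain ⟨A', hAK, hAN, ⟨v, hvC, hv⟩, hAT, hA1⟩ := stepA
    have hMemE : ∀ {M' : Matrix N N B}, Mem (ringGroup A C) M' → ∀ p q, M' p q ∈ C := by
      rintro M' ⟨g, hg, rfl⟩ p q
      exact hg.1.1 p q
    have hxS : ∀ s ∈ S, s ≠ x := fun s hs e => hx (by rw [← e]; exact hs)
    have hzS : ∀ s ∈ S, s ≠ z := fun s hs e => hz (by rw [← e]; exact hs)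
    set M1 := M * A' with hM1
    have hM1N : Mem (ringGroup A C) M1 := hM.mul hAN
    -- second: make the entry in row x and column z equal to one
    set c1 : B := v * (1 - M1 x z) with hc1
    have hc1C : c1 ∈ C := C.mul_mem hvC (C.sub_mem C.one_mem (hMemE hM1N x z))
    set M2 := M1 * E x z c1 with hM2
    have hEmul : ∀ (P : Matrix N N B) (p q : N) (c : B) (a b : N),
        (P * E a b c) p q = P p q + P p a * (Pi.single b c : N → B) q := by
      intro P p q c a b
      rw [E_def]; exact mul_row_update P a _ p q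
    have hM2N : Mem (ringGroup A C) M2 := hM1N.mul (E_mem_ring hxz hc1C)
    have hM2z : M2 x z = 1 := by
      rw [hM2, hEmul, Pi.single_eq_same, hc1]
      have : M1 x x * (v * (1 - M1 x z)) = (v * M1 x x) * (1 - M1 x z) := by ring
      rw [this, hv]; ring
    have hM2T : Triv S M2 := by
      intro s hs y hy
      refine ⟨?_, ?_⟩
      · rw [hM2, hEmul, (hAT s hs y hy).1, (hAT s hs x (hxS s hs).symm).1]; simp
      · rw [hM2, hEmul, (hAT s hs y hy).2]; simp [Pi.single_apply, hzS s hs]
    have hM21 : ∀ s ∈ S, M2 s s = 1 := by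
      intro s hs
      rw [hM2, hEmul, hA1 s hs, (hAT s hs x (hxS s hs).symm).1]; simp
    -- third: make the pivot one
    set c2 : B := 1 - M2 x x with hc2
    have hc2C : c2 ∈ C := C.sub_mem C.one_mem (hMemE hM2N x x)
    set M3 := M2 * E z x c2 with hM3
    have hM3N : Mem (ringGroup A C) M3 := hM2N.mul (E_mem_ring hxz.symm hc2C)
    have hM3x : M3 x x = 1 := by
      rw [hM3, hEmul, Pi.single_eq_same, hM2z, hc2]; ring
    have hM3T : Triv S M3 := by
      intro s hs y hy
      refine ⟨?_, ?_⟩
      · rw [hM3, hEmul, (hM2T s hs y hy).1, (hM2T s hs z (hzS s hs).symm).1]; simp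
      · rw [hM3, hEmul, (hM2T s hs y hy).2]; simp [Pi.single_apply, hxS s hs]
    have hM31 : ∀ s ∈ S, M3 s s = 1 := by
      intro s hs
      rw [hM3, hEmul, hM21 s hs, (hM2T s hs z (hzS s hs).symm).1]; simp
    -- fourth: clear the row
    let ρ : N → B := fun y => if y = x then 0 else - M3 x y
    have hρ : ∀ y, ρ y ∈ C := by
      intro y
      by_cases hy : y = x
      · simp only [ρ, hy, if_true]; exact C.zero_mem
      · simp only [ρ, hy, if_false]
        exact C.neg_mem (hMemE hM3N x y)
    have hρx : ρ x = 0 := by simp [ρ]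
    have hBK := row_gen' hG x ρ hρ hρx
    have hBN := row_gen' hN x ρ hρ hρx
    set M4 := M3 * (1 + vecMulVec (Pi.single x 1) ρ) with hM4
    have hM4N : Mem (ringGroup A C) M4 := hM3N.mul hBN
    have hM4e : ∀ p q, M4 p q = M3 p q + M3 p x * ρ q := fun p q => mul_row_update _ _ _ _ _
    have hM4x : M4 x x = 1 := by rw [hM4e, hρx, mul_zero, add_zero, hM3x]
    have hM4r : ∀ y, y ≠ x → M4 x y = 0 := by
      intro y hy
      rw [hM4e, hM3x]; simp [ρ, hy]
    have hM4T : Triv S M4 := by
      intro s hs y hy
      have hsx := hxS s hs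
      refine ⟨?_, ?_⟩
      · rw [hM4e, (hM3T s hs y hy).1, (hM3T s hs x hsx.symm).1]; simp
      · have : ρ s = 0 := by simp [ρ, hsx, (hM3T s hs x hsx.symm).2]
        rw [hM4e, (hM3T s hs y hy).2, this]; simp
    have hM41 : ∀ s ∈ S, M4 s s = 1 := by
      intro s hs
      rw [hM4e, hM31 s hs, (hM3T s hs x (hxS s hs).symm).1]; simp
    -- fifth: clear the column
    let κ : N → B := fun y => if y = x then 0 else - M4 y x
    have hκ : ∀ y, κ y ∈ C := by
      intro y
      by_cases hy : y = x
      · simp only [κ, hy, if_true]; exact C.zero_mem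
      · simp only [κ, hy, if_false]
        exact C.neg_mem (hMemE hM4N y x)
    have hκx : κ x = 0 := by simp [κ]
    have hCK := col_gen' hG x κ hκ hκx
    have hCN := col_gen' hN x κ hκ hκx
    set M5 := (1 + vecMulVec κ (Pi.single x 1)) * M4 with hM5
    have hM5N : Mem (ringGroup A C) M5 := hCN.mul hM4N
    have hM5e : ∀ p q, M5 p q = M4 p q + κ p * M4 x q := fun p q => col_update_mul _ _ _ _ _
    have hM5x : M5 x x = 1 := by rw [hM5e, hκx, zero_mul, add_zero, hM4x]
    have hfin : Mem K M5 := by
      refine ih (insert x S) ?_ M5 hM5N ?_ ?_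
      · have : (insert x S)ᶜ = Sᶜ.erase x := by
          ext y; simp only [Finset.mem_compl, Finset.mem_insert, Finset.mem_erase, not_or]
        rw [this, Finset.card_erase_of_mem (Finset.mem_compl.2 hx), hS]
        omega
      · intro s hs y hy
        rcases Finset.mem_insert.1 hs with rfl | hs
        · refine ⟨?_, ?_⟩
          · rw [hM5e, hM4r y hy, hκx]; simp
          · rw [hM5e, hM4x]; simp [κ, hy]
        · have hsx := hxS s hs
          refine ⟨?_, ?_⟩
          · have : κ s = 0 := by simp [κ, hsx, (hM4T s hs x hsx.symm).1]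
            rw [hM5e, (hM4T s hs y hy).1, this]; simp
          · rw [hM5e, (hM4T s hs y hy).2, hM4r s hsx]; simp
      · intro s hs
        rcases Finset.mem_insert.1 hs with rfl | hs
        · exact hM5x
        · rw [hM5e, hM41 s hs, hM4r s (hxS s hs)]; simp
    have r1 : Mem K M4 := hCK.of_mul_left hfin
    have r2 : Mem K M3 := hBK.of_mul_right r1
    have r3 : Mem K M2 := (hG z x hxz.symm c2 hc2C).of_mul_right r2
    have r4 : Mem K M1 := (hG x z hxz c1 hc1C).of_mul_right r3
    exact hAK.of_mul_right r4

theorem ringGroup_ringLev [Finite B] {A : Subring B} {K : Subgroup (Matrix N N B)ˣ}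
    (hK : ringGroup A A ≤ K) (hN : Big B N) (hp : PowOne B (Fintype.card N))
    (hKG : K ≤ ringGroup A ⊤) : ringGroup A (ringLev K hK hN) = K := by
  refine le_antisymm ?_ (le_ringGroup hK hN hp hKG)
  intro g hg
  have hpos : 0 < Fintype.card N := by
    obtain ⟨a, -⟩ := hN.other ∅ (by simp)
    exact Fintype.card_pos_iff.2 ⟨a⟩
  obtain ⟨k, hk, e⟩ := elim' hK (C := ringLev K hK hN) (fun x y hxy c hc => hc x y hxy)
    (Fintype.card N - 1) ∅ (by rw [Finset.compl_empty, Finset.card_univ]; omega)
    (g : Matrix N N B) ⟨g, hg, rfl⟩ (by intro s hs; simp at hs) (by intro s hs; simp at hs)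
  have : k = g := Units.ext e
  rw [← this]; exact hk

theorem ringLev_ringGroup {A C : Subring B} (hAC : A ≤ C) (hN : Big B N) :
    ringLev (ringGroup (N := N) A C) (ringGroup_mono hAC) hN = C := by
  ext c
  rw [mem_ringLev]
  constructor
  · intro h
    obtain ⟨x, -⟩ := hN.other ∅ (by simp)
    obtain ⟨y, hy⟩ := hN.other {x} (by simp)
    simp only [Finset.mem_singleton] at hy
    obtain ⟨g, hg, e⟩ := h x y (Ne.symm hy)
    have h1 := hg.1.1 x y
    rw [e, E_def, Matrix.add_apply, Matrix.one_apply_ne (Ne.symm hy), vecMulVec_apply] at h1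
    simpa using h1
  · intro hc x y hxy
    exact E_mem_ring hxy hc

/-- Intermediate rings and overgroups. -/
noncomputable def ringIso [Finite B] (A : Subring B) (hN : Big B N)
    (hp : PowOne B (Fintype.card N)) :
    {C : Subring B // A ≤ C} ≃o
      {K : Subgroup (Matrix N N B)ˣ // ringGroup A A ≤ K ∧ K ≤ ringGroup A ⊤} where
  toFun C := ⟨ringGroup A C.1, ringGroup_mono C.2, ringGroup_mono le_top⟩
  invFun K := ⟨ringLev K.1 K.2.1 hN, le_ringLev K.2.1 hN⟩
  left_inv C := Subtype.ext (ringLev_ringGroup C.2 hN)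
  right_inv K := Subtype.ext (ringGroup_ringLev K.2.1 hN hp K.2.2)
  map_rel_iff' := by
    intro C C'
    constructor
    · intro h c hc
      have e := ringLev_ringGroup (N := N) C'.2 hN
      have : c ∈ ringLev (ringGroup (N := N) A C'.1) (ringGroup_mono C'.2) hN := by
        intro x y hxy
        exact (E_mem_ring hxy hc).mono h
      rw [e] at this
      exact this
    · intro h
      exact ringGroup_mono h

theorem big_exists (B : Type) [CommRing B] [Finite B] :
    ∃ n : ℕ, Big B (Fin n) ∧ PowOne B (Fintype.card (Fin n)) := by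
  classical
  haveI : Fintype B := Fintype.ofFinite B
  set q := Fintype.card B with hq
  set m := Nat.factorial (Nat.card (Set B)) with hm
  have hmpos : 0 < m := Nat.factorial_pos _
  have hqpos : 0 < q := Fintype.card_pos_iff.2 ⟨0⟩
  set n := q * m * 8 + 1 with hn
  have hqn : q + 6 ≤ n := by nlinarith [Nat.mul_le_mul hqpos hmpos, Nat.mul_le_mul_left q hmpos]
  refine ⟨n, ⟨?_, ?_, ?_⟩, ?_⟩
  · intro φ c
    have hcard : (Finset.univ : Finset B).card < (Finset.univ.erase c : Finset (Fin n)).card := by
      rw [Finset.card_erase_of_mem (Finset.mem_univ _), Finset.card_univ, Finset.card_univ,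
        Fintype.card_fin]
      omega
    obtain ⟨a, ha, b, hb, hab, h⟩ := Finset.exists_ne_map_eq_of_card_lt_of_maps_to hcard
      (f := fun a => φ a) (fun a _ => Finset.mem_univ _)
    exact ⟨a, b, hab, Finset.ne_of_mem_erase ha, Finset.ne_of_mem_erase hb, h⟩
  · intro s hs
    by_contra hc
    push Not at hc
    have : s = Finset.univ := by ext x; simp [hc x]
    rw [this, Finset.card_univ, Fintype.card_fin] at hs
    omega
  · rw [Fintype.card_fin, hn]
    have : (q : B) = 0 := by rw [hq]; exact Nat.cast_card_eq_zero B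
    push_cast
    rw [this]; ring
  · intro C I J hIJ
    rw [Fintype.card_fin]
    have hJI : J * I = 1 := by rw [mul_comm]; exact hIJ
    let u : (Submodule C B)ˣ := ⟨I, J, hIJ, hJI⟩
    haveI : Finite (Submodule C B) := Finite.of_injective (fun I : Submodule C B => (I : Set B))
      SetLike.coe_injective
    have hdiv : Nat.card (Submodule C B)ˣ ∣ m := by
      apply Nat.dvd_factorial
      · exact Nat.card_pos
      · have h1 : Function.Injective (fun u : (Submodule C B)ˣ => ((u : Submodule C B) : Set B)) :=
          fun u v h => Units.ext (SetLike.coe_injective h)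
        exact Nat.card_le_card_of_injective _ h1
    obtain ⟨k, hk⟩ := hdiv
    have hu : u ^ m = 1 := by
      rw [hk, pow_mul, pow_card_eq_one', one_pow]
    have hI : I ^ m = 1 := by
      have := congrArg Units.val hu
      simpa using this
    rw [hn, pow_succ]
    have : q * m * 8 = m * (q * 8) := by ring
    rw [this, pow_mul, hI, one_pow, one_mul]

/-- The lattice of rings between two finite commutative rings is an interval in the subgroup
lattice of a finite group. -/
theorem gi_ring (B : Type) [CommRing B] [Finite B] (A : Subring B) :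
    GroupInterval {C : Subring B // A ≤ C} := by
  classical
  obtain ⟨n, hN, hp⟩ := big_exists B
  have h : GroupInterval {K : Subgroup (Matrix (Fin n) (Fin n) B)ˣ // ⊥ ≤ K} :=
    ⟨_, inferInstance, inferInstance, ⊥, ⟨OrderIso.refl _⟩⟩
  have h2 := gi_interval h ⟨ringGroup A A, bot_le⟩ ⟨ringGroup A ⊤, bot_le⟩
    (ringGroup_mono le_top)
  refine GroupInterval.of_iso ?_ h2
  refine (ringIso A hN hp).trans ?_
  exact
    { toFun := fun K => ⟨⟨K.1, bot_le⟩, K.2⟩
      invFun := fun K => ⟨K.1.1, K.2⟩
      left_inv := fun K => rfl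
      right_inv := fun K => rfl
      map_rel_iff' := by intro x y; exact Iff.rfl }

end Vale.Agent.P183.H750
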