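import Vale.Agent.P183.H317.Main
import Vale.Agent.P183.H994.Icc

/-!
P183: all rings between two rings `A ≤ B` such that `A` contains the corners `e B e` of a complete
orthogonal family of idempotents.
-/

namespace Vale.Agent.P183.H750

open Vale.Agent.P183 Vale.Agent.P183.H996

/-- the rings between `A` and `B` as subrings of `B` -/
def betweenIso {R : Type} [Ring R] (A B : Subring R) (hAB : A ≤ B) :
    {C : Subring R // A ≤ C ∧ C ≤ B} ≃o {P : Subring B // A.comap B.subtype ≤ P ∧ P ≤ ⊤} where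
  toFun C := ⟨C.1.comap B.subtype, fun _ hx => C.2.1 hx, le_top⟩
  invFun P := ⟨P.1.map B.subtype, fun a ha => ⟨⟨a, hAB ha⟩, P.2.1 ha, rfl⟩, by
    rintro _ ⟨b, -, rfl⟩
    exact b.2⟩
  left_inv C := by
    apply Subtype.ext
    ext x
    constructor
    · rintro ⟨b, hb, rfl⟩
      exact hb
    · intro hx
      exact ⟨⟨x, C.2.2 hx⟩, hx, rfl⟩
  right_inv P := by
    apply Subtype.ext
    ext x
    constructor
    · rintro ⟨b, hb, h⟩
      have : b = x := Subtype.ext h
      exact this ▸ hb
    · intro hx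
      exact ⟨x, hx, rfl⟩
  map_rel_iff' := by
    intro C C'
    constructor
    · intro h x hx
      exact h (show (⟨x, C.2.2 hx⟩ : B) ∈ C.1.comap B.subtype from hx)
    · intro h x hx
      exact h hx

theorem gi_corner {R X : Type} [Ring R] [Finite R] [Fintype X] (e : X → R)
    (he : ∀ x, e x * e x = e x) (ho : ∀ x y, x ≠ y → e x * e y = 0) (hs : ∑ x, e x = 1)
    (A B : Subring R) (hA : ∀ x, ∀ b ∈ B, e x * b * e x ∈ A) (hAB : A ≤ B) :
    GroupInterval {C : Subring R // A ≤ C ∧ C ≤ B} := by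
  have heA : ∀ x, e x ∈ A := by
    intro x
    have h := hA x 1 B.one_mem
    rwa [mul_one, he x] at h
  let f : X → B := fun x => ⟨e x, hAB (heA x)⟩
  have h0 := H317.peirce f (fun x => Subtype.ext (he x)) (fun x y h => Subtype.ext (ho x y h))
    (Subtype.ext (by
      rw [AddSubmonoidClass.coe_finsetSum]
      exact hs))
  let a : {P : Subring B // ∀ x a, f x * a * f x ∈ P} :=
    ⟨A.comap B.subtype, fun x b => hA x b.1 b.2⟩
  let b : {P : Subring B // ∀ x a, f x * a * f x ∈ P} := ⟨⊤, fun _ _ => trivial⟩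
  have hab : a ≤ b := fun _ _ => trivial
  have h1 := H994.icc h0 hab
  refine GroupInterval.of_iso (betweenIso A B hAB) (GroupInterval.of_iso ?_ h1)
  exact
    { toFun := fun P => ⟨⟨P.1, fun x y => P.2.1 (hA x y.1 y.2)⟩, P.2.1, P.2.2⟩
      invFun := fun P => ⟨P.1.1, P.2.1, P.2.2⟩
      left_inv := fun _ => rfl
      right_inv := fun _ => rfl
      map_rel_iff' := Iff.rfl }

end Vale.Agent.P183.H750
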