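import Vale.Agent.P183.H750.Ops
import Vale.Agent.P183.H750.AlphaEnd
import Vale.Agent.P183.R2.H808.Iso

/-! P183: intermediate rings closed under endomorphisms and antiendomorphisms. -/

namespace Vale.Agent.P183.H750

open Matrix Vale.Agent.P183 Vale.Agent.P183.H996 Vale.Agent.P183.H577

variable {R : Type} [Ring R] [Finite R] {n : ℕ}

theorem end_row {ι : Type} [Fintype ι] [DecidableEq ι] (e : Fin n → R)
    (he : ∀ i, e i * e i = e i) (ho : ∀ i j, i ≠ j → e i * e j = 0) (hs : ∑ i, e i = 1)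
    (p : ι → Fin n) (hp : Function.Surjective p)
    (hB : ∀ K : Subgroup (Matrix ι ι R)ˣ, bl e p ≤ K → K ≤ gl e ⊤ p →
      ∃ S : Subring R, (∀ i x, e i * x * e i ∈ S) ∧ K = gl e S p)
    (F : Set (R →+ R))
    (hF : ∀ θ ∈ F, (∀ x y, θ (x * y) = θ x * θ y) ∨ (∀ x y, θ (x * y) = θ y * θ x))
    (hFe : ∀ θ ∈ F, ∀ i, θ (e i) = e i)
    (A : Subring R) (hA : ∀ i x, e i * x * e i ∈ A) (hFA : ∀ θ ∈ F, ∀ a ∈ A, θ a ∈ A) :
    Representable {C : Subring R // A ≤ C ∧ ∀ θ ∈ F, ∀ c ∈ C, θ c ∈ C} := by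
  have hfin : Finite (Matrix ι ι R) := inferInstanceAs (Finite (ι → ι → R))
  have hfu : Finite (Matrix ι ι R)ˣ := Finite.of_injective _ Units.val_injective
  have hfg : Finite (gl e ⊤ p) := inferInstance
  choose α hα1 hα2 using fun θ : F => alpha_end_750 e he ho hs p hp θ.1 (hF θ.1 θ.2) (hFe θ.1 θ.2)
  have htop : ∀ θ : F, ∀ g ∈ gl e ⊤ p, α θ g ∈ gl e ⊤ p := fun θ =>
    (hα2 θ ⊤ fun _ _ => Subring.mem_top _).2 fun _ _ => Subring.mem_top _
  let β : F → (gl e ⊤ p →* gl e ⊤ p) := fun θ =>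
    { toFun := fun g => ⟨α θ g.1, htop θ g.1 g.2⟩
      map_one' := Subtype.ext (map_one (α θ))
      map_mul' := fun g h => Subtype.ext (map_mul (α θ) g.1 h.1) }
  let H : Subgroup (gl e ⊤ p) := (gl e A p).subgroupOf (gl e ⊤ p)
  have hH : ∀ φ ∈ Set.range β, ∀ x ∈ H, φ x ∈ H := by
    rintro _ ⟨θ, rfl⟩ x hx
    exact (hα2 θ A hA).2 (hFA θ.1 θ.2) x.1 hx
  have hrep := fix_end H (Set.range β) hH
  have hcor : ∀ C : Subring R, A ≤ C → ∀ i x, e i * x * e i ∈ C := fun C hC i x => hC (hA i x)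
  let f : {C : Subring R // A ≤ C ∧ ∀ θ ∈ F, ∀ c ∈ C, θ c ∈ C} →
      {K : Subgroup (gl e ⊤ p) // H ≤ K ∧ ∀ φ ∈ Set.range β, ∀ x ∈ K, φ x ∈ K} := fun C =>
    ⟨(gl e C.1 p).subgroupOf (gl e ⊤ p), fun g hg => iso_gl_mono e p C.2.1 hg, by
      rintro _ ⟨θ, rfl⟩ x hx
      exact (hα2 θ C.1 (hcor C.1 C.2.1)).2 (C.2.2 θ.1 θ.2) x.1 hx⟩
  have hf : ∀ S T, f S ≤ f T ↔ S ≤ T := by
    intro S T
    constructor
    · intro h
      refine iso_le_of_gl_le e he hs p hp (hcor S.1 S.2.1) (hcor T.1 T.2.1) fun g hg => ?_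
      have h1 : g ∈ gl e ⊤ p := iso_gl_mono e p le_top hg
      exact h (show (⟨g, h1⟩ : gl e ⊤ p) ∈ (gl e S.1 p).subgroupOf (gl e ⊤ p) from hg)
    · intro h g hg
      exact iso_gl_mono e p h hg
  have hsurj : Function.Surjective f := by
    rintro ⟨Y, hY, hYF⟩
    have hAtop : gl e A p ≤ gl e ⊤ p := iso_gl_mono e p le_top
    have hAY : gl e A p ≤ Y.map (gl e ⊤ p).subtype := fun g hg =>
      ⟨⟨g, hAtop hg⟩, hY (show _ ∈ (gl e A p).subgroupOf (gl e ⊤ p) from hg), rfl⟩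
    obtain ⟨S, hS, hK⟩ := hB (Y.map (gl e ⊤ p).subtype)
      ((iso_bl_le e p A hA).trans hAY) (by
        rintro _ ⟨g, _, rfl⟩
        exact g.2)
    have hY' : (gl e S p).subgroupOf (gl e ⊤ p) = Y := by
      rw [← hK]
      ext g
      constructor
      · rintro ⟨g', hg', h⟩
        have h1 : g' = g := Subtype.ext h
        rw [← h1]
        exact hg'
      · intro hg
        exact ⟨g, hg, rfl⟩
    have hAS : A ≤ S := iso_le_of_gl_le e he hs p hp hA hS (hK ▸ hAY)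
    have hFS : ∀ θ ∈ F, ∀ c ∈ S, θ c ∈ S := by
      intro θ hθ
      refine (hα2 ⟨θ, hθ⟩ S hS).1 fun g hg => ?_
      have h1 : g ∈ gl e ⊤ p := iso_gl_mono e p le_top hg
      have h2 : (⟨g, h1⟩ : gl e ⊤ p) ∈ Y := by
        rw [← hY']
        exact hg
      have h3 := hYF (β ⟨θ, hθ⟩) ⟨⟨θ, hθ⟩, rfl⟩ _ h2
      rw [← hY'] at h3
      exact h3
    exact ⟨⟨S, hAS, hFS⟩, Subtype.ext hY'⟩
  have hinj : Function.Injective f := fun S T h =>
    le_antisymm ((hf S T).1 h.le) ((hf T S).1 h.ge)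
  exact Representable.of_iso
    { toEquiv := Equiv.ofBijective f ⟨hinj, hsurj⟩
      map_rel_iff' := fun {S T} => hf S T } hrep

end Vale.Agent.P183.H750
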