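import Vale.Agent.P183.H750.Over
import Vale.Agent.P183.R2.H577.ElimG

/-! P183: rings between `A` and `B` closed under endomorphisms and antiendomorphisms. -/

namespace Vale.Agent.P183.H750

open Matrix Vale.Agent.P183 Vale.Agent.P183.H996 Vale.Agent.P183.H577

/-- `C` is mapped into itself by all maps of `F` -/
def Closed {R : Type} [Ring R] (F : Set (R →+ R)) (C : Subring R) : Prop :=
  ∀ θ ∈ F, ∀ c ∈ C, θ c ∈ C

/-- each map of `F` is an endomorphism or an antiendomorphism of the ring -/
def Endos {R : Type} [Ring R] (F : Set (R →+ R)) : Prop :=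
  ∀ θ ∈ F, (∀ x y, θ (x * y) = θ x * θ y) ∨ (∀ x y, θ (x * y) = θ y * θ x)

theorem end_fin (R : Type) [Ring R] [Finite R] (n : ℕ) (e : Fin n → R)
    (he : ∀ i, e i * e i = e i) (ho : ∀ i j, i ≠ j → e i * e j = 0) (hs : ∑ i, e i = 1)
    (F : Set (R →+ R)) (hF : Endos F) (hFe : ∀ θ ∈ F, ∀ i, θ (e i) = e i)
    (A : Subring R) (hA : ∀ i x, e i * x * e i ∈ A) (hFA : Closed F A) :
    Representable {C : Subring R // A ≤ C ∧ Closed F C} := by
  obtain ⟨ι, _, _, p, hp, hB⟩ := over_all R n e he ho hs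
    (fun ι _ _ p S hS K hK hT => elim_gen e he ho hs p S hS K hK hT)
  exact end_row e he ho hs p hp hB F hF hFe A hA hFA

/-- the restriction of an additive map to a subring -/
def resB {R : Type} [Ring R] (B : Subring R) (θ : R →+ R) (h : ∀ b ∈ B, θ b ∈ B) : B →+ B where
  toFun b := ⟨θ b.1, h b.1 b.2⟩
  map_zero' := Subtype.ext (map_zero θ)
  map_add' a b := Subtype.ext (map_add θ a.1 b.1)

theorem end_between {R X : Type} [Ring R] [Finite R] [Fintype X] (e : X → R)
    (he : ∀ x, e x * e x = e x) (ho : ∀ x y, x ≠ y → e x * e y = 0) (hs : ∑ x, e x = 1)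
    (F : Set (R →+ R)) (hF : Endos F) (hFe : ∀ θ ∈ F, ∀ x, θ (e x) = e x)
    (A B : Subring R) (hA : ∀ x, ∀ b ∈ B, e x * b * e x ∈ A) (hAB : A ≤ B)
    (hFA : Closed F A) (hFB : Closed F B) :
    Representable {C : Subring R // (A ≤ C ∧ C ≤ B) ∧ Closed F C} := by
  have heA : ∀ x, e x ∈ A := by
    intro x
    have h := hA x 1 B.one_mem
    rwa [mul_one, he x] at h
  let σ := Fintype.equivFin X
  let f : Fin (Fintype.card X) → B := fun i => ⟨e (σ.symm i), hAB (heA _)⟩
  have hfs : ∑ i, f i = 1 := by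
    apply Subtype.ext
    rw [AddSubmonoidClass.coe_finsetSum]
    show ∑ i, e (σ.symm i) = 1
    rw [← hs]
    exact Equiv.sum_comp σ.symm e
  let F' : Set (B →+ B) := {ψ | ∃ θ ∈ F, ∀ b, (ψ b).1 = θ b.1}
  have hF' : Endos F' := by
    rintro ψ ⟨θ, hθ, h⟩
    rcases hF θ hθ with h1 | h1
    · left
      intro x y
      apply Subtype.ext
      rw [h, Subring.coe_mul, Subring.coe_mul, h, h, h1]
    · right
      intro x y
      apply Subtype.ext
      rw [h, Subring.coe_mul, Subring.coe_mul, h, h, h1]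
  have hrep := end_fin B (Fintype.card X) f (fun i => Subtype.ext (he _))
    (fun i j hij => Subtype.ext (ho _ _ fun h => hij (σ.symm.injective h))) hfs F' hF'
    (by
      rintro ψ ⟨θ, hθ, h⟩ i
      apply Subtype.ext
      rw [h]
      exact hFe θ hθ _)
    (A.comap B.subtype) (fun i b => hA _ b.1 b.2)
    (by
      rintro ψ ⟨θ, hθ, h⟩ c hc
      show (ψ c).1 ∈ A
      rw [h]
      exact hFA θ hθ _ hc)
  refine Representable.of_iso ?_ hrep
  exact
    { toFun := fun C => ⟨C.1.comap B.subtype, fun _ hx => C.2.1.1 hx, by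
        rintro ψ ⟨θ, hθ, h⟩ c hc
        show (ψ c).1 ∈ C.1
        rw [h]
        exact C.2.2 θ hθ _ hc⟩
      invFun := fun P => ⟨P.1.map B.subtype, ⟨fun a ha => ⟨⟨a, hAB ha⟩, P.2.1 ha, rfl⟩, by
        rintro _ ⟨b, -, rfl⟩
        exact b.2⟩, by
        rintro θ hθ _ ⟨b, hb, rfl⟩
        refine ⟨resB B θ (hFB θ hθ) b, P.2.2 _ ⟨θ, hθ, fun _ => rfl⟩ b hb, rfl⟩⟩
      left_inv := by
        intro C
        apply Subtype.ext
        ext x
        constructor
        · rintro ⟨b, hb, rfl⟩
          exact hb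
        · intro hx
          exact ⟨⟨x, C.2.1.2 hx⟩, hx, rfl⟩
      right_inv := by
        intro P
        apply Subtype.ext
        ext x
        constructor
        · rintro ⟨b, hb, h⟩
          have : b = x := Subtype.ext h
          exact this ▸ hb
        · intro hx
          exact ⟨x, hx, rfl⟩
      map_rel_iff' := by
        intro C C'
        constructor
        · intro h x hx
          exact h (show (⟨x, C.2.1.2 hx⟩ : B) ∈ C.1.comap B.subtype from hx)
        · intro h x hx
          exact h hx }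

end Vale.Agent.P183.H750
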