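import Mathlib.Topology.Order
import Mathlib.Data.Fintype.Powerset
import Mathlib.Data.Set.Finite.Basic

/-! P183: topologies on a finite set are preorders. -/

open Topology

namespace Vale.Agent.P183.H750

/-- the preorder of a topology: every open set containing `x` contains `y` -/
def spec {X : Type} (t : TopologicalSpace X) :
    {r : X → X → Prop // (∀ x, r x x) ∧ ∀ x y z, r x y → r y z → r x z} :=
  ⟨fun x y => ∀ s : Set X, t.IsOpen s → x ∈ s → y ∈ s, fun _ _ _ h => h,
    fun _ _ _ h1 h2 s hs hx => h2 s hs (h1 s hs hx)⟩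

/-- the topology of a preorder: the open sets are the sets closed upwards -/
@[reducible] def topOf {X : Type} (r : {r : X → X → Prop // (∀ x, r x x) ∧ ∀ x y z, r x y → r y z → r x z}) :
    TopologicalSpace X where
  IsOpen s := ∀ x y, r.1 x y → x ∈ s → y ∈ s
  isOpen_univ := fun _ _ _ _ => trivial
  isOpen_inter := fun _ _ h1 h2 x y h h3 => ⟨h1 x y h h3.1, h2 x y h h3.2⟩
  isOpen_sUnion := fun _ h x y h1 ⟨t, h2, h3⟩ => ⟨t, h2, h t h2 x y h1 h3⟩

theorem spec_topOf {X : Type}
    (r : {r : X → X → Prop // (∀ x, r x x) ∧ ∀ x y z, r x y → r y z → r x z}) :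
    spec (topOf r) = r := by
  apply Subtype.ext
  funext x y
  apply propext
  constructor
  · intro h
    exact h {z | r.1 x z} (fun a b hab ha => r.2.2 _ _ _ ha hab) (r.2.1 x)
  · intro h s hs hx
    exact hs x y h hx

theorem topOf_spec {X : Type} [Finite X] (t : TopologicalSpace X) : topOf (spec t) = t := by
  apply TopologicalSpace.ext
  funext s
  apply propext
  constructor
  · intro h
    have h1 : s = ⋃ x ∈ s, ⋂ u ∈ {u : Set X | t.IsOpen u ∧ x ∈ u}, u := by
      ext z
      simp only [Set.mem_iUnion, Set.mem_iInter, Set.mem_ofPred_eq]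
      constructor
      · intro hz
        exact ⟨z, hz, fun u hu => hu.2⟩
      · rintro ⟨x, hx, h2⟩
        exact h x z (fun u hu hxu => h2 u ⟨hu, hxu⟩) hx
    have h2 : IsOpen[t] s := by
      rw [h1]
      refine @isOpen_biUnion X _ t _ _ fun x _ => ?_
      exact @Set.Finite.isOpen_biInter X _ t _ _ (Set.toFinite {u : Set X | t.IsOpen u ∧ x ∈ u}) fun u hu => hu.1
    exact h2
  · intro h x y hxy hx
    exact hxy s h hx

/-- the lattice of all topologies on a finite set (the discrete topology at the bottom) is the
lattice of all preorders -/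
def topoIso (X : Type) [Finite X] : TopologicalSpace X ≃o
    {r : X → X → Prop // (∀ x, r x x) ∧ ∀ x y z, r x y → r y z → r x z} where
  toFun := spec
  invFun := topOf
  left_inv := topOf_spec
  right_inv := spec_topOf
  map_rel_iff' := by
    intro t u
    constructor
    · intro h
      have h1 : t ≤ u ↔ ∀ s, u.IsOpen s → t.IsOpen s := Iff.rfl
      rw [h1]
      intro s hs
      rw [← topOf_spec t]
      intro x y hxy hx
      exact h x y hxy s hs hx
    · intro h x y hxy s hs hx
      exact hxy s (h s hs) hx

end Vale.Agent.P183.H750
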