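import Vale.Agent.P183.H750.Corner
import Vale.Agent.P183.H994.NetCor
import Vale.Agent.P183.R2.H416.SubAll
import Vale.Agent.P183.R2.H409.Cor2
import Vale.Agent.P183.R2.H409.Simple
import Vale.Agent.P183.H750.Topo

/-!
P183: definitions for the final statement, and its clauses.
-/

namespace Vale.Agent.P183.H750

open Vale.Agent.P183 Vale.Agent.P183.H996

/-- the elements between `a` and `b` -/
abbrev Btw {L : Type} [LE L] (a b : L) : Type := {x : L // a ≤ x ∧ x ≤ b}

/-- `L` is an interval in the subgroup lattice of a finite group, and a congruence lattice -/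
def Both (L : Type) [LE L] : Prop := GroupInterval L ∧ Representable L

theorem both_of {L : Type} [LE L] (h : GroupInterval L) : Both L := ⟨h, R2.H409.gi_rep h⟩

theorem gi_net (R X : Type) [CommRing R] [Finite R] [Finite X] : GroupInterval (H994.Net R X) :=
  H994.net_all (fun _ _ _ _ _ he ho hs => H317.peirce _ he ho hs) R X

theorem gi_pres (X : Type) [Finite X] : GroupInterval (H994.Preords X) := by
  have : Fact (Nat.Prime 2) := ⟨Nat.prime_two⟩
  obtain ⟨f⟩ := H994.net_field (ZMod 2) X
  exact GroupInterval.of_iso f.symm (gi_net (ZMod 2) X)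

theorem gi_top (X : Type) [Finite X] : GroupInterval (TopologicalSpace X) :=
  GroupInterval.of_iso (topoIso X) (gi_pres X)

theorem gi_dist (X : Type) [Finite X] (k : ℕ) : GroupInterval (R2.H409.Dst X k) :=
  R2.H409.gi_dst (fun X R _ _ _ _ => gi_net R X) X k

theorem gi_sublat (D : Type) [DistribLattice D] [Finite D] : GroupInterval (Sublattice D) :=
  H577.sub_all (fun X _ _ _ hab => H994.icc (gi_pres X) hab) D

end Vale.Agent.P183.H750
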