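import Vale.Agent.P183.H750.Fin
import Vale.Agent.P183.H750.EndAll
import Vale.Agent.P183.R2.H577.ThetaB
import Vale.Agent.P183.R2.H849.SNet
import Vale.Agent.P183.R2.H409.Pm

/-!
P183: definitions for the final statement, and its clauses (third version).
-/

namespace Vale.Agent.P183.H750

open Vale.Agent.P183 Vale.Agent.P183.H996

/-- symmetric nets of ideals -/
abbrev SymNet (K X : Type) [CommRing K] : Type :=
  {s : X → X → Ideal K // (∀ x, s x x = ⊤) ∧ (∀ x y, s x y = s y x) ∧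
    ∀ x y z, s x y * s y z ≤ s x z}

/-- pseudometrics with values in `{0, ..., k}` -/
abbrev Pseudo (X : Type) (k : ℕ) : Type :=
  {d : X → X → ℕ // (∀ x y, d x y ≤ k) ∧ (∀ x, d x x = 0) ∧
    (∀ x y, d x y = d y x) ∧ ∀ x y z, d x z ≤ d x y + d y z}

theorem gi_symnet (K X : Type) [CommRing K] [Finite K] [Finite X] :
    GroupInterval (SymNet K X) := H577.snet_row H577.main_theta K X

theorem gi_pseudo (X : Type) [Finite X] (k : ℕ) : GroupInterval (Pseudo X k) :=
  H577.pm_row (fun K X _ _ _ => gi_symnet K X) X k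

theorem gi_closed {R X : Type} [Ring R] [Finite R] [Fintype X] (e : X → R)
    (he : ∀ x, e x * e x = e x) (ho : ∀ x y, x ≠ y → e x * e y = 0) (hs : ∑ x, e x = 1)
    (F : Set (R →+ R)) (hF : Endos F) (hFe : ∀ θ ∈ F, ∀ x, θ (e x) = e x)
    (A B : Subring R) (hA : ∀ x, ∀ b ∈ B, e x * b * e x ∈ A) (hAB : A ≤ B)
    (hFA : Closed F A) (hFB : Closed F B) (hbij : ∀ θ ∈ F, Function.Bijective θ) :
    GroupInterval {C : Subring R // (A ≤ C ∧ C ≤ B) ∧ Closed F C} := by
  let Th : Set (R ≃+ R) := {τ | ∃ θ ∈ F, ∀ x, τ x = θ x}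
  have hcl : ∀ C : Subring R, (∀ τ ∈ Th, ∀ c ∈ C, τ c ∈ C) ↔ Closed F C := by
    intro C
    constructor
    · intro h θ hθ c hc
      exact h (AddEquiv.ofBijective θ (hbij θ hθ)) ⟨θ, hθ, fun _ => rfl⟩ c hc
    · rintro h τ ⟨θ, hθ, h1⟩ c hc
      rw [h1]
      exact h θ hθ c hc
  have h0 := H577.theta_between R X e he ho hs Th
    (by
      rintro τ ⟨θ, hθ, h1⟩
      rcases hF θ hθ with h2 | h2
      · left
        intro x y
        rw [h1, h1, h1, h2]
      · right
        intro x y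
        rw [h1, h1, h1, h2])
    (by
      rintro τ ⟨θ, hθ, h1⟩ x
      rw [h1]
      exact hFe θ hθ x)
    A B hA hAB ((hcl A).2 hFA) ((hcl B).2 hFB)
  refine GroupInterval.of_iso ?_ h0
  exact
    { toFun := fun C => ⟨C.1, C.2.1, (hcl C.1).2 C.2.2⟩
      invFun := fun C => ⟨C.1, C.2.1, (hcl C.1).1 C.2.2⟩
      left_inv := fun _ => rfl
      right_inv := fun _ => rfl
      map_rel_iff' := Iff.rfl }

end Vale.Agent.P183.H750
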