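import Vale.Agent.P183.H750.Fin3

/-!
P183: short forms for the final statement.
-/

namespace Vale.Agent.P183.H750

open Vale.Agent.P183 Vale.Agent.P183.H996

/-- every interval of `L` is an interval in the subgroup lattice of a finite group, and a
congruence lattice -/
def AllInt (L : Type) [LE L] : Prop := ∀ a b : L, a ≤ b → Both (Btw a b)

/-- orthogonal idempotents with sum `1` -/
def Idems {R X : Type} [Ring R] [Fintype X] (e : X → R) : Prop :=
  (∀ x, e x * e x = e x) ∧ (∀ x y, x ≠ y → e x * e y = 0) ∧ ∑ x, e x = 1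

/-- the rings between `A` and `B` which are mapped into themselves by `F` -/
abbrev Rings {R : Type} [Ring R] (F : Set (R →+ R)) (A B : Subring R) : Type :=
  {C : Subring R // (A ≤ C ∧ C ≤ B) ∧ Closed F C}

theorem allInt {L : Type} [PartialOrder L] (h : GroupInterval L) : AllInt L :=
  fun _ _ hab => both_of (H994.icc h hab)

theorem rings_rep {R X : Type} [Ring R] [Finite R] [Fintype X] (e : X → R) (he : Idems e)
    (F : Set (R →+ R)) (hF : Endos F) (hFe : ∀ θ ∈ F, ∀ x, θ (e x) = e x) (A B : Subring R)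
    (hA : ∀ x, ∀ b ∈ B, e x * b * e x ∈ A) (hAB : A ≤ B) (hFA : Closed F A)
    (hFB : Closed F B) :
    Representable (Rings F A B) ∧
      ((∀ θ ∈ F, Function.Bijective θ) → GroupInterval (Rings F A B)) :=
  ⟨end_between e he.1 he.2.1 he.2.2 F hF hFe A B hA hAB hFA hFB,
    gi_closed e he.1 he.2.1 he.2.2 F hF hFe A B hA hAB hFA hFB⟩

end Vale.Agent.P183.H750
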