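import Vale.Agent.P183.H750.Lower

/-!
The lattice of nets of ideals is the lattice of overgroups of the block diagonal group.
-/

namespace Vale.Agent.P183.H750

set_option linter.all false

open Matrix

/-- Nets of ideals of `R` over the index set `X`. -/
abbrev NetT (X R : Type) [CommRing R] : Type :=
  {σ : X → X → Ideal R // (∀ i, σ i i = ⊤) ∧ ∀ i j k, σ i j * σ j k ≤ σ i k}

variable {R : Type} [CommRing R] {N X : Type} [Fintype N] [DecidableEq N] {blk : N → X}

theorem E_mem_netGroup {σ : X → X → Ideal R} {h0 : ∀ i, σ i i = ⊤}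
    {h1 : ∀ i j k, σ i j * σ j k ≤ σ i k} {x y : N} (hxy : x ≠ y) {r : R}
    (hr : r ∈ σ (blk x) (blk y)) : Mem (netGroup blk σ h0 h1) (E x y r) := by
  have key : ∀ s ∈ σ (blk x) (blk y), ∀ p q, (E x y s) p q ∈ σ (blk p) (blk q) := by
    intro s hs p q
    rw [E_def, Matrix.add_apply, vecMulVec_apply]
    refine Ideal.add_mem _ ?_ ?_
    · by_cases hpq : p = q
      · subst hpq; rw [h0]; exact Submodule.mem_top
      · rw [Matrix.one_apply_ne hpq]; exact Ideal.zero_mem _
    · by_cases hp : p = x
      · by_cases hq : q = y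
        · subst hp; subst hq; simpa using hs
        · simp [Pi.single_apply, hq]
      · simp [Pi.single_apply, hp]
  refine ⟨⟨E x y r, E x y (-r), ?_, ?_⟩, ⟨?_, ?_⟩, rfl⟩
  · rw [E_mul hxy, add_neg_cancel, E_zero]
  · rw [E_mul hxy, neg_add_cancel, E_zero]
  · intro p q; exact key r hr p q
  · intro p q; exact key (-r) ((Ideal.neg_mem_iff _).2 hr) p q

theorem diag_mem_block (x : N) (u : Rˣ) :
    Mem (blockGroup blk) (Matrix.diagonal (Function.update (1 : N → R) x (u : R))) := by
  have hmul : ∀ v w : Rˣ, v * w = 1 → Matrix.diagonal (Function.update (1 : N → R) x (v : R)) *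
      Matrix.diagonal (Function.update (1 : N → R) x (w : R)) = 1 := by
    intro v w h
    rw [Matrix.diagonal_mul_diagonal, ← Matrix.diagonal_one]
    congr 1
    funext i
    by_cases hi : i = x
    · subst hi
      simp only [Function.update_self]
      rw [← Units.val_mul, h, Units.val_one]
    · simp [Function.update_of_ne hi]
  refine ⟨⟨_, Matrix.diagonal (Function.update (1 : N → R) x ((u⁻¹ : Rˣ) : R)),
    hmul u u⁻¹ (mul_inv_cancel u), hmul u⁻¹ u (inv_mul_cancel u)⟩, ⟨?_, ?_⟩, rfl⟩
  · intro p q hpq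
    exact Matrix.diagonal_apply_ne _ (fun e => hpq (by rw [e]))
  · intro p q hpq
    exact Matrix.diagonal_apply_ne _ (fun e => hpq (by rw [e]))

theorem block_le_netGroup {σ : X → X → Ideal R} {h0 : ∀ i, σ i i = ⊤}
    {h1 : ∀ i j k, σ i j * σ j k ≤ σ i k} : blockGroup blk ≤ netGroup (N := N) blk σ h0 h1 := by
  intro g hg
  refine ⟨fun x y => ?_, fun x y => ?_⟩
  · by_cases h : blk x = blk y
    · rw [h, h0]; exact Submodule.mem_top
    · rw [hg.1 x y h]; exact Ideal.zero_mem _
  · by_cases h : blk x = blk y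
    · rw [h, h0]; exact Submodule.mem_top
    · rw [hg.2 x y h]; exact Ideal.zero_mem _

theorem Mem.mono {K K' : Subgroup (Matrix N N R)ˣ} (h : K ≤ K') {M : Matrix N N R}
    (hM : Mem K M) : Mem K' M := by
  obtain ⟨g, hg, e⟩ := hM
  exact ⟨g, h hg, e⟩

theorem E_mem_block {x y : N} (hxy : x ≠ y) (hb : blk x = blk y) (r : R) :
    Mem (blockGroup blk) (E x y r) := by
  rw [E_def]
  refine mem_block_rank_one (by simp [Pi.single_apply, hxy, hxy.symm]) ?_
  intro p q hpq
  simp only [Pi.single_apply]
  by_cases e1 : p = x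
  · by_cases e2 : q = y
    · exact absurd (by rw [e1, e2, hb]) hpq
    · simp [e2]
  · simp [e1]

theorem gen_net {K : Subgroup (Matrix N N R)ˣ} (hK : blockGroup blk ≤ K) (hg : Good R blk) :
    Gen blk (net K hK hg) K := by
  refine ⟨fun x y hxy r hr => ?_, fun x u => (diag_mem_block x u).mono hK⟩
  by_cases hb : blk x = blk y
  · exact (E_mem_block hxy hb r).mono hK
  · exact (mem_net hb).1 hr x y rfl rfl

theorem gen_netGroup {σ : X → X → Ideal R} {h0 : ∀ i, σ i i = ⊤}
    {h1 : ∀ i j k, σ i j * σ j k ≤ σ i k} : Gen blk σ (netGroup (N := N) blk σ h0 h1) :=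
  ⟨fun x y hxy r hr => E_mem_netGroup hxy hr, fun x u => (diag_mem_block x u).mono
    block_le_netGroup⟩

theorem netGroup_net [Finite R] [Finite X] {K : Subgroup (Matrix N N R)ˣ}
    (hK : blockGroup blk ≤ K) (hg : Good R blk) :
    netGroup blk (net K hK hg) (net_self K hK hg) (net_mul K hK hg) = K := by
  refine le_antisymm ?_ (le_netGroup hK hg)
  intro g hgN
  obtain ⟨k, hk, e⟩ := elim (gen_net hK hg) gen_netGroup _ ∅ rfl (g : Matrix N N R)
    ⟨g, hgN, rfl⟩ (by intro s hs; simp at hs) (by intro s hs; simp at hs)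
  have : k = g := Units.ext e
  rw [← this]; exact hk

theorem net_netGroup (σ : NetT X R) (hg : Good R blk) :
    net (netGroup (N := N) blk σ.1 σ.2.1 σ.2.2) block_le_netGroup hg = σ.1 := by
  funext i j
  by_cases hij : i = j
  · subst hij; rw [net_self, σ.2.1]
  have hne : Nonempty N := by
    by_contra hne
    rw [not_nonempty_iff] at hne
    have hx := hg.sums ∅ {i} (by simp)
    have : i ∈ (∅ : Set X) := by rw [hx]; rfl
    exact this
  ext r
  rw [mem_net hij]
  constructor
  · intro h
    obtain ⟨x, hx, -, -⟩ := hg.other i (Classical.choice hne) (Classical.choice hne)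
    obtain ⟨y, hy, -, -⟩ := hg.other j (Classical.choice hne) (Classical.choice hne)
    obtain ⟨g, hgN, e⟩ := h x y hx hy
    have h1 := hgN.1 x y
    have hxy : x ≠ y := fun e => hij (by rw [← hx, ← hy, e])
    rw [e, hx, hy, E_def, Matrix.add_apply, Matrix.one_apply_ne hxy, vecMulVec_apply] at h1
    simpa using h1
  · intro hr x y hx hy
    have hxy : x ≠ y := fun e => hij (by rw [← hx, ← hy, e])
    exact E_mem_netGroup hxy (by rw [hx, hy]; exact hr)

/-- The lattice of nets is the lattice of overgroups of the block diagonal group. -/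
noncomputable def netIso [Finite R] [Finite X] (hg : Good R blk) :
    NetT X R ≃o {K : Subgroup (Matrix N N R)ˣ // blockGroup blk ≤ K} where
  toFun σ := ⟨netGroup blk σ.1 σ.2.1 σ.2.2, block_le_netGroup⟩
  invFun K := ⟨net K.1 K.2 hg, net_self K.1 K.2 hg, net_mul K.1 K.2 hg⟩
  left_inv σ := Subtype.ext (net_netGroup σ hg)
  right_inv K := Subtype.ext (netGroup_net K.2 hg)
  map_rel_iff' := by
    intro σ τ
    constructor
    · intro h i j r hr
      have e1 := congrFun (congrFun (net_netGroup (N := N) (blk := blk) σ hg) i) j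
      have e2 := congrFun (congrFun (net_netGroup (N := N) (blk := blk) τ hg) i) j
      rw [← e1] at hr
      rw [← e2]
      by_cases hij : i = j
      · subst hij; rw [net_self]; exact Submodule.mem_top
      rw [mem_net hij] at hr ⊢
      intro x y hx hy
      exact (hr x y hx hy).mono h
    · intro h g hgN
      exact ⟨fun x y => h _ _ (hgN.1 x y), fun x y => h _ _ (hgN.2 x y)⟩

end Vale.Agent.P183.H750
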