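import Vale.Agent.P183.H750.Upper

/-!
The group of a net is generated by block diagonal matrices and transvections (elimination).
-/

namespace Vale.Agent.P183.H750

set_option linter.all false

open Matrix

variable {R : Type} [CommRing R] {N X : Type} [Fintype N] [DecidableEq N] {blk : N → X}

theorem Mem.of_mul_right {K : Subgroup (Matrix N N R)ˣ} {M A : Matrix N N R} (hA : Mem K A)
    (h : Mem K (M * A)) : Mem K M := by
  obtain ⟨a, ha, rfl⟩ := hA
  obtain ⟨b, hb, e⟩ := h
  exact ⟨b * a⁻¹, K.mul_mem hb (K.inv_mem ha), by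
    rw [Units.val_mul, e, Matrix.mul_assoc, Units.mul_inv, mul_one]⟩

theorem Mem.of_mul_left {K : Subgroup (Matrix N N R)ˣ} {M A : Matrix N N R} (hA : Mem K A)
    (h : Mem K (A * M)) : Mem K M := by
  obtain ⟨a, ha, rfl⟩ := hA
  obtain ⟨b, hb, e⟩ := h
  exact ⟨a⁻¹ * b, K.mul_mem (K.inv_mem ha) hb, by
    rw [Units.val_mul, e, ← Matrix.mul_assoc, Units.inv_mul, one_mul]⟩

/-- The group contains the generators. -/
structure Gen (blk : N → X) (σ : X → X → Ideal R) (K : Subgroup (Matrix N N R)ˣ) : Prop where
  tr : ∀ x y, x ≠ y → ∀ r ∈ σ (blk x) (blk y), Mem K (E x y r)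
  dg : ∀ (x : N) (u : Rˣ), Mem K (Matrix.diagonal (Function.update 1 x (u : R)))

variable {σ : X → X → Ideal R}

theorem row_gen {K : Subgroup (Matrix N N R)ˣ} (hG : Gen blk σ K) (x : N) (ρ : N → R)
    (hρ : ∀ y, ρ y ∈ σ (blk x) (blk y)) (h0 : ρ x = 0) :
    Mem K (1 + vecMulVec (Pi.single x 1) ρ) := by
  have key : ∀ T : Finset N, x ∉ T →
      Mem K (1 + vecMulVec (Pi.single x 1) (∑ y ∈ T, Pi.single y (ρ y))) := by
    intro T
    induction T using Finset.induction_on with
    | empty => intro _; simpa using Mem.one K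
    | insert a T ha ih =>
      intro hx
      have hxa : x ≠ a := fun e => hx (by rw [e]; exact Finset.mem_insert_self _ _)
      have hxT : x ∉ T := fun e => hx (Finset.mem_insert_of_mem e)
      rw [Finset.sum_insert ha]
      have h1 := (hG.tr x a hxa (ρ a) (hρ a)).mul (ih hxT)
      have e : E x a (ρ a) * (1 + vecMulVec (Pi.single x (1 : R)) (∑ y ∈ T, Pi.single y (ρ y))) =
          1 + vecMulVec (Pi.single x (1 : R)) (Pi.single a (ρ a) + ∑ y ∈ T, Pi.single y (ρ y)) := by
        rw [E_def, mul_add, add_mul, add_mul, vecMulVec_mul_vecMulVec, vecMulVec_add]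
        have : (Pi.single a (ρ a) ⬝ᵥ Pi.single x (1 : R)) = 0 := by
          simp [Pi.single_apply, hxa, hxa.symm]
        rw [this, zero_smul]
        have z : vecMulVec (Pi.single x (1 : R) : N → R) (0 : N → R) = 0 := by
          ext i j; simp [vecMulVec_apply]
        rw [z]
        simp only [mul_one, one_mul, add_zero]
        abel
      rw [← e]; exact h1
  have := key (Finset.univ.erase x) (by simp)
  have e : (∑ y ∈ Finset.univ.erase x, (Pi.single y (ρ y) : N → R)) = ρ := by
    have h1 := Finset.univ_sum_single ρ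
    rw [← Finset.add_sum_erase _ _ (Finset.mem_univ x), h0] at h1
    simpa using h1
  rw [e] at this
  exact this

theorem col_gen {K : Subgroup (Matrix N N R)ˣ} (hG : Gen blk σ K) (x : N) (κ : N → R)
    (hκ : ∀ y, κ y ∈ σ (blk y) (blk x)) (h0 : κ x = 0) :
    Mem K (1 + vecMulVec κ (Pi.single x 1)) := by
  have key : ∀ T : Finset N, x ∉ T →
      Mem K (1 + vecMulVec (∑ y ∈ T, Pi.single y (κ y)) (Pi.single x 1)) := by
    intro T
    induction T using Finset.induction_on with
    | empty => intro _; simpa using Mem.one K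
    | insert a T ha ih =>
      intro hx
      have hxa : x ≠ a := fun e => hx (by rw [e]; exact Finset.mem_insert_self _ _)
      have hxT : x ∉ T := fun e => hx (Finset.mem_insert_of_mem e)
      rw [Finset.sum_insert ha]
      have h1 := (ih hxT).mul (hG.tr a x hxa.symm (κ a) (hκ a))
      have z0 : vecMulVec (Pi.single a (1 : R) : N → R) (Pi.single x (κ a) : N → R) =
          vecMulVec (Pi.single a (κ a)) (Pi.single x 1) := by
        ext i j
        simp only [vecMulVec_apply, Pi.single_apply]
        split_ifs <;> simp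
      have e : (1 + vecMulVec (∑ y ∈ T, Pi.single y (κ y)) (Pi.single x (1 : R))) * E a x (κ a) =
          1 + vecMulVec (Pi.single a (κ a) + ∑ y ∈ T, Pi.single y (κ y)) (Pi.single x (1 : R)) := by
        rw [E_def, z0]
        have ex : ∀ P Q : Matrix N N R, (1 + P) * (1 + Q) = 1 + (Q + P) + P * Q := by
          intro P Q; noncomm_ring
        rw [ex, vecMulVec_mul_vecMulVec, ← add_vecMulVec]
        have : (Pi.single x (1 : R) ⬝ᵥ (Pi.single a (κ a) : N → R)) = 0 := by
          simp [Pi.single_apply, hxa, hxa.symm]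
        rw [this, zero_smul]
        have z : vecMulVec (∑ y ∈ T, Pi.single y (κ y) : N → R) (0 : N → R) = 0 := by
          ext i j; simp [vecMulVec_apply]
        rw [z, add_zero]
      rw [← e]; exact h1
  have := key (Finset.univ.erase x) (by simp)
  have e : (∑ y ∈ Finset.univ.erase x, (Pi.single y (κ y) : N → R)) = κ := by
    have h1 := Finset.univ_sum_single κ
    rw [← Finset.add_sum_erase _ _ (Finset.mem_univ x), h0] at h1
    simpa using h1
  rw [e] at this
  exact this

/-- Rows and columns in `S` are trivial. -/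
def Triv (S : Finset N) (M : Matrix N N R) : Prop :=
  ∀ s ∈ S, ∀ y, y ≠ s → M s y = 0 ∧ M y s = 0

theorem mul_row_update (M : Matrix N N R) (x : N) (ρ : N → R) (p q : N) :
    (M * (1 + vecMulVec (Pi.single x 1) ρ)) p q = M p q + M p x * ρ q := by
  rw [mul_add, mul_one, Matrix.add_apply, mul_vecMulVec, vecMulVec_apply]
  simp

theorem col_update_mul (M : Matrix N N R) (x : N) (κ : N → R) (p q : N) :
    ((1 + vecMulVec κ (Pi.single x 1)) * M) p q = M p q + κ p * M x q := by
  rw [add_mul, one_mul, Matrix.add_apply, vecMulVec_mul, vecMulVec_apply]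
  simp

/-- Finite commutative rings have stable range one. -/
theorem stable_range [Finite R] {a b r s : R} (h : r * a + s * b = 1) :
    ∃ t, IsUnit (a + t * b) := by
  obtain ⟨i, j, hij, he⟩ := Finite.exists_ne_map_eq_of_infinite (fun n : ℕ => a ^ n)
  wlog hlt : i < j generalizing i j
  · exact this j i hij.symm he.symm (by omega)
  have he : a ^ i = a ^ j := he
  obtain ⟨p, rfl⟩ := Nat.exists_eq_add_of_lt hlt
  have hp : ∀ k m : ℕ, i ≤ m → a ^ (m + k * (p + 1)) = a ^ m := by
    intro k
    induction k with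
    | zero => intro m _; simp
    | succ k ih =>
      intro m hm
      have : m + (k + 1) * (p + 1) = (m - i) + (i + p + 1) + k * (p + 1) := by
        have : (k + 1) * (p + 1) = k * (p + 1) + (p + 1) := by ring
        omega
      rw [this, ih _ (by omega), pow_add, ← he, ← pow_add]
      congr 1; omega
  set n := (i + 1) * (p + 1) with hn
  have hni : i ≤ n := by nlinarith
  have hn0 : n ≠ 0 := by positivity
  have hee : a ^ n * a ^ n = a ^ n := by
    rw [← pow_add]; exact hp (i + 1) n hni
  refine ⟨1 - a ^ n, ?_⟩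
  by_contra hu
  obtain ⟨P, hP, hmem⟩ := exists_max_ideal_of_mem_nonunits hu
  have h0 : a ^ n * (1 - a ^ n) ∈ P := by
    rw [mul_sub, mul_one, hee, sub_self]; exact P.zero_mem
  rcases hP.isPrime.mem_or_mem h0 with h1 | h1
  · have ha : a ∈ P := hP.isPrime.mem_of_pow_mem n h1
    have h2 : (1 - a ^ n) * b ∈ P := by
      have := P.sub_mem hmem ha
      rwa [add_sub_cancel_left] at this
    rcases hP.isPrime.mem_or_mem h2 with h3 | h3
    · have := P.add_mem h3 h1
      rw [sub_add_cancel] at this
      exact hP.ne_top ((Ideal.eq_top_iff_one _).2 this)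
    · have := P.add_mem (P.mul_mem_left r ha) (P.mul_mem_left s h3)
      rw [h] at this
      exact hP.ne_top ((Ideal.eq_top_iff_one _).2 this)
  · have ha : a ∈ P := by
      have := P.sub_mem hmem (P.mul_mem_right b h1)
      rwa [add_sub_cancel_right] at this
    have h2 : a ^ n ∈ P := P.pow_mem_of_mem ha n (Nat.pos_of_ne_zero hn0)
    have := P.add_mem h1 h2
    rw [sub_add_cancel] at this
    exact hP.ne_top ((Ideal.eq_top_iff_one _).2 this)

theorem elim [Finite R] {h0 : ∀ i, σ i i = ⊤} {h1 : ∀ i j k, σ i j * σ j k ≤ σ i k}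
    {K : Subgroup (Matrix N N R)ˣ} (hG : Gen blk σ K)
    (hN : Gen blk σ (netGroup (N := N) blk σ h0 h1)) (n : ℕ) :
    ∀ S : Finset N, Sᶜ.card = n → ∀ M : Matrix N N R, Mem (netGroup blk σ h0 h1) M →
      Triv S M → (∀ s ∈ S, M s s = 1) → Mem K M := by
  induction n with
  | zero =>
    intro S hS M hM hT h11
    have : S = Finset.univ := by
      rw [Finset.card_eq_zero] at hS
      rw [← compl_compl S, hS, Finset.compl_empty]
    subst this
    have e : M = 1 := by
      ext x y
      by_cases hxy : x = y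
      · subst hxy; rw [h11 x (Finset.mem_univ _), Matrix.one_apply_eq]
      · rw [(hT x (Finset.mem_univ _) y (Ne.symm hxy)).1, Matrix.one_apply_ne hxy]
    rw [e]; exact Mem.one K
  | succ n ih =>
    intro S hS M hM hT h11
    have hne : Sᶜ.Nonempty := by rw [← Finset.card_pos, hS]; omega
    obtain ⟨x, hx⟩ := hne
    rw [Finset.mem_compl] at hx
    -- first: make the diagonal entry at `x` a unit
    have stepA : ∃ A : Matrix N N R, Mem K A ∧ Mem (netGroup blk σ h0 h1) A ∧
        IsUnit ((M * A) x x) ∧ Triv S (M * A) ∧ (∀ s ∈ S, (M * A) s s = 1) := by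
      obtain ⟨g, hgN, rfl⟩ := hM
      have h : ∑ z, (g : Matrix N N R) x z * ((g⁻¹ : (Matrix N N R)ˣ) : Matrix N N R) z x = 1 := by
        rw [← Matrix.mul_apply, Units.mul_inv, Matrix.one_apply_eq]
      rw [← Finset.add_sum_erase _ _ (Finset.mem_univ x)] at h
      obtain ⟨t, ht⟩ := stable_range (a := (g : Matrix N N R) x x)
        (b := ∑ z ∈ Finset.univ.erase x, (g : Matrix N N R) x z *
          ((g⁻¹ : (Matrix N N R)ˣ) : Matrix N N R) z x)
        (r := ((g⁻¹ : (Matrix N N R)ˣ) : Matrix N N R) x x) (s := 1)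
        (by rw [one_mul, mul_comm]; exact h)
      let κ : N → R := fun z => if z = x ∨ z ∈ S then 0 else
        ((g⁻¹ : (Matrix N N R)ˣ) : Matrix N N R) z x * t
      have hκ : ∀ z, κ z ∈ σ (blk z) (blk x) := by
        intro z
        by_cases hz : z = x ∨ z ∈ S
        · simp [κ, hz]
        · simp only [κ, hz, if_false]
          exact Ideal.mul_mem_right _ _ (hgN.2 z x)
      have hκx : κ x = 0 := by simp [κ]
      have hmul : ∀ p q, ((g : Matrix N N R) * (1 + vecMulVec κ (Pi.single x 1))) p q =
          (g : Matrix N N R) p q + (∑ z, (g : Matrix N N R) p z * κ z) *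
            (Pi.single x (1 : R) : N → R) q := by
        intro p q
        rw [mul_add, mul_one, Matrix.add_apply, mul_vecMulVec, vecMulVec_apply]
        rfl
      refine ⟨1 + vecMulVec κ (Pi.single x 1), col_gen hG x κ hκ hκx, col_gen hN x κ hκ hκx,
        ?_, ?_, ?_⟩
      · rw [hmul]
        have e : (∑ z, (g : Matrix N N R) x z * κ z) = t * ∑ z ∈ Finset.univ.erase x,
            (g : Matrix N N R) x z * ((g⁻¹ : (Matrix N N R)ˣ) : Matrix N N R) z x := by
          rw [← Finset.add_sum_erase _ _ (Finset.mem_univ x), hκx, mul_zero, zero_add,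
            Finset.mul_sum]
          refine Finset.sum_congr rfl (fun z hz => ?_)
          have hzx : z ≠ x := (Finset.mem_erase.1 hz).1
          by_cases hzS : z ∈ S
          · rw [(hT z hzS x (fun e => hzx e.symm)).2]; simp
          · simp only [κ, hzx, hzS, or_self, if_false]; ring
        rw [e]
        simpa using ht
      · intro s hs y hy
        have hsx : s ≠ x := fun e => hx (by rw [← e]; exact hs)
        have hz : (∑ z, (g : Matrix N N R) s z * κ z) = 0 := by
          refine Finset.sum_eq_zero (fun z _ => ?_)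
          by_cases hzs : z = s
          · have : κ z = 0 := by simp [κ, hzs, hs]
            rw [this, mul_zero]
          · rw [(hT s hs z hzs).1, zero_mul]
        refine ⟨?_, ?_⟩
        · rw [hmul, (hT s hs y hy).1, hz]; simp
        · rw [hmul, (hT s hs y hy).2]
          simp [Pi.single_apply, hsx]
      · intro s hs
        have hsx : s ≠ x := fun e => hx (by rw [← e]; exact hs)
        rw [hmul, h11 s hs]
        simp [Pi.single_apply, hsx]
    obtain ⟨A, hAK, hAN, hAu, hAT, hA1⟩ := stepA
    obtain ⟨u, hu⟩ := hAu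
    -- second: scale
    set M1 := M * A with hM1
    set D := Matrix.diagonal (Function.update (1 : N → R) x ((u⁻¹ : Rˣ) : R)) with hD
    have hDmul : ∀ p q, (M1 * D) p q = M1 p q * (Function.update (1 : N → R) x
        ((u⁻¹ : Rˣ) : R)) q := fun p q => by rw [hD, Matrix.mul_diagonal]
    have hM2N : Mem (netGroup blk σ h0 h1) (M1 * D) := (hM.mul hAN).mul (hN.dg x u⁻¹)
    set M2 := M1 * D with hM2
    have hM2x : M2 x x = 1 := by
      rw [hDmul, ← hu]; simp
    have hM2T : Triv S M2 := by
      intro s hs y hy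
      exact ⟨by rw [hDmul, (hAT s hs y hy).1, zero_mul],
        by rw [hDmul, (hAT s hs y hy).2, zero_mul]⟩
    have hM21 : ∀ s ∈ S, M2 s s = 1 := by
      intro s hs
      have hsx : s ≠ x := fun e => hx (by rw [← e]; exact hs)
      rw [hDmul, hA1 s hs, Function.update_of_ne hsx]; simp
    have hMemE : ∀ {M' : Matrix N N R}, Mem (netGroup blk σ h0 h1) M' → ∀ p q,
        M' p q ∈ σ (blk p) (blk q) := by
      rintro M' ⟨g, hg, rfl⟩ p q
      exact hg.1 p q
    -- third: clear the row
    let ρ : N → R := fun y => if y = x then 0 else - M2 x y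
    have hρ : ∀ y, ρ y ∈ σ (blk x) (blk y) := by
      intro y
      by_cases hy : y = x
      · simp [ρ, hy]
      · simp only [ρ, hy, if_false]
        exact (Ideal.neg_mem_iff _).2 (hMemE hM2N x y)
    have hρx : ρ x = 0 := by simp [ρ]
    have hBK := row_gen hG x ρ hρ hρx
    have hBN := row_gen hN x ρ hρ hρx
    set M3 := M2 * (1 + vecMulVec (Pi.single x 1) ρ) with hM3
    have hM3N : Mem (netGroup blk σ h0 h1) M3 := hM2N.mul hBN
    have hM3e : ∀ p q, M3 p q = M2 p q + M2 p x * ρ q := fun p q => mul_row_update _ _ _ _ _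
    have hM3x : M3 x x = 1 := by rw [hM3e, hρx, mul_zero, add_zero, hM2x]
    have hM3r : ∀ y, y ≠ x → M3 x y = 0 := by
      intro y hy
      rw [hM3e, hM2x]; simp [ρ, hy]
    have hM3T : Triv S M3 := by
      intro s hs y hy
      have hsx : s ≠ x := fun e => hx (by rw [← e]; exact hs)
      refine ⟨?_, ?_⟩
      · rw [hM3e, (hM2T s hs y hy).1, (hM2T s hs x hsx.symm).1]; simp
      · have : ρ s = 0 := by simp [ρ, hsx, (hM2T s hs x hsx.symm).2]
        rw [hM3e, (hM2T s hs y hy).2, this]; simp
    have hM31 : ∀ s ∈ S, M3 s s = 1 := by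
      intro s hs
      have hsx : s ≠ x := fun e => hx (by rw [← e]; exact hs)
      rw [hM3e, hM21 s hs, (hM2T s hs x hsx.symm).1]; simp
    -- fourth: clear the column
    let κ : N → R := fun y => if y = x then 0 else - M3 y x
    have hκ : ∀ y, κ y ∈ σ (blk y) (blk x) := by
      intro y
      by_cases hy : y = x
      · simp [κ, hy]
      · simp only [κ, hy, if_false]
        exact (Ideal.neg_mem_iff _).2 (hMemE hM3N y x)
    have hκx : κ x = 0 := by simp [κ]
    have hCK := col_gen hG x κ hκ hκx
    have hCN := col_gen hN x κ hκ hκx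
    set M4 := (1 + vecMulVec κ (Pi.single x 1)) * M3 with hM4
    have hM4N : Mem (netGroup blk σ h0 h1) M4 := hCN.mul hM3N
    have hM4e : ∀ p q, M4 p q = M3 p q + κ p * M3 x q := fun p q => col_update_mul _ _ _ _ _
    have hM4x : M4 x x = 1 := by rw [hM4e, hκx, zero_mul, add_zero, hM3x]
    have hfin : Mem K M4 := by
      refine ih (insert x S) ?_ M4 hM4N ?_ ?_
      · have : (insert x S)ᶜ = Sᶜ.erase x := by
          ext y; simp only [Finset.mem_compl, Finset.mem_insert, Finset.mem_erase, not_or]
        rw [this, Finset.card_erase_of_mem (Finset.mem_compl.2 hx), hS]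
        omega
      · intro s hs y hy
        rcases Finset.mem_insert.1 hs with rfl | hs
        · refine ⟨?_, ?_⟩
          · rw [hM4e, hM3r y hy, hκx]; simp
          · rw [hM4e, hM3x]; simp [κ, hy]
        · have hsx : s ≠ x := fun e => hx (by rw [← e]; exact hs)
          refine ⟨?_, ?_⟩
          · have : κ s = 0 := by simp [κ, hsx, (hM3T s hs x hsx.symm).1]
            rw [hM4e, (hM3T s hs y hy).1, this]; simp
          · rw [hM4e, (hM3T s hs y hy).2, hM3r s hsx]; simp
      · intro s hs
        rcases Finset.mem_insert.1 hs with rfl | hs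
        · exact hM4x
        · have hsx : s ≠ x := fun e => hx (by rw [← e]; exact hs)
          rw [hM4e, hM31 s hs, hM3r s hsx]; simp
    have r1 : Mem K M3 := hCK.of_mul_left hfin
    have r2 : Mem K M2 := hBK.of_mul_right r1
    have r3 : Mem K M1 := (hG.dg x u⁻¹).of_mul_right r2
    exact hAK.of_mul_right r3

end Vale.Agent.P183.H750
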