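import Mathlib.LinearAlgebra.Matrix.NonsingularInverse
import Mathlib.LinearAlgebra.Matrix.Rank
import Mathlib.RingTheory.LocalRing.ResidueField.Basic
import Mathlib.RingTheory.Ideal.Operations
import Mathlib.RingTheory.Ideal.BigOperators
import Mathlib.Tactic.NoncommRing

/-!
Rank one unipotent matrices; the group of a net of ideals; the level of an overgroup of the block
diagonal group.
-/

namespace Vale.Agent.P183.H750

set_option linter.all false

open Matrix

variable {R : Type} [CommRing R] {N X : Type} [Fintype N] [DecidableEq N]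

/-- Commutator formula, first form. -/
theorem comm_one {u φ w ψ : N → R} (h1 : φ ⬝ᵥ u = 0) (h2 : ψ ⬝ᵥ w = 0) (h3 : φ ⬝ᵥ w = 0) :
    (1 + vecMulVec w ψ) * (1 + vecMulVec u φ) * (1 - vecMulVec w ψ) * (1 - vecMulVec u φ) =
      1 + vecMulVec ((ψ ⬝ᵥ u) • w) φ := by
  have e1 : vecMulVec u φ * vecMulVec u φ = 0 := by
    rw [vecMulVec_mul_vecMulVec, h1]; ext i j; simp [vecMulVec_apply]
  have e2 : vecMulVec w ψ * vecMulVec w ψ = 0 := by
    rw [vecMulVec_mul_vecMulVec, h2]; ext i j; simp [vecMulVec_apply]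
  have e3 : vecMulVec u φ * vecMulVec w ψ = 0 := by
    rw [vecMulVec_mul_vecMulVec, h3]; ext i j; simp [vecMulVec_apply]
  have e4 : vecMulVec w ψ * vecMulVec u φ = vecMulVec ((ψ ⬝ᵥ u) • w) φ := by
    rw [vecMulVec_mul_vecMulVec]; ext i j; simp [vecMulVec_apply]; ring
  rw [← e4]
  set A := vecMulVec u φ
  set B := vecMulVec w ψ
  have : (1 + B) * (1 + A) * (1 - B) * (1 - A) =
      1 + B * A - (B * B) - (A * A) - A * B + (A * B) * A + (B * B) * A - B * (A * A) -
        B * (A * B) + B * (A * B) * A := by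
    noncomm_ring
  rw [this, e1, e2, e3]
  simp

/-- Commutator formula, second form. -/
theorem comm_two {u φ w ψ : N → R} (h1 : φ ⬝ᵥ u = 0) (h2 : ψ ⬝ᵥ w = 0) (h3 : ψ ⬝ᵥ u = 0) :
    (1 + vecMulVec w ψ) * (1 + vecMulVec u φ) * (1 - vecMulVec w ψ) * (1 - vecMulVec u φ) =
      1 - vecMulVec u ((φ ⬝ᵥ w) • ψ) := by
  have e1 : vecMulVec u φ * vecMulVec u φ = 0 := by
    rw [vecMulVec_mul_vecMulVec, h1]; ext i j; simp [vecMulVec_apply]
  have e2 : vecMulVec w ψ * vecMulVec w ψ = 0 := by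
    rw [vecMulVec_mul_vecMulVec, h2]; ext i j; simp [vecMulVec_apply]
  have e3 : vecMulVec w ψ * vecMulVec u φ = 0 := by
    rw [vecMulVec_mul_vecMulVec, h3]; ext i j; simp [vecMulVec_apply]
  have e4 : vecMulVec u φ * vecMulVec w ψ = vecMulVec u ((φ ⬝ᵥ w) • ψ) := by
    rw [vecMulVec_mul_vecMulVec]
  rw [← e4]
  set A := vecMulVec u φ
  set B := vecMulVec w ψ
  have : (1 + B) * (1 + A) * (1 - B) * (1 - A) =
      1 - A * B + B * A - (B * B) - (A * A) + A * (B * A) + B * (B * A) - (B * A) * A -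
        (B * A) * B + B * A * (B * A) := by
    noncomm_ring
  rw [this, e1, e2, e3]
  simp

/-- Membership of a matrix in a group of units. -/
def Mem (K : Subgroup (Matrix N N R)ˣ) (M : Matrix N N R) : Prop :=
  ∃ g : (Matrix N N R)ˣ, g ∈ K ∧ (g : Matrix N N R) = M

theorem Mem.mul {K : Subgroup (Matrix N N R)ˣ} {A B : Matrix N N R} (hA : Mem K A)
    (hB : Mem K B) : Mem K (A * B) := by
  obtain ⟨g, hg, rfl⟩ := hA
  obtain ⟨h, hh, rfl⟩ := hB
  exact ⟨g * h, K.mul_mem hg hh, by simp⟩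

theorem Mem.inv {K : Subgroup (Matrix N N R)ˣ} {A B : Matrix N N R} (hA : Mem K A)
    (h : A * B = 1) : Mem K B := by
  obtain ⟨g, hg, rfl⟩ := hA
  exact ⟨g⁻¹, K.inv_mem hg, Units.inv_eq_of_mul_eq_one_right h⟩

theorem Mem.one (K : Subgroup (Matrix N N R)ˣ) : Mem K 1 := ⟨1, K.one_mem, by simp⟩

theorem mul_inv_rank_one {u φ : N → R} (h : φ ⬝ᵥ u = 0) :
    (1 + vecMulVec u φ) * (1 - vecMulVec u φ) = 1 := by
  have e1 : vecMulVec u φ * vecMulVec u φ = 0 := by
    rw [vecMulVec_mul_vecMulVec, h]; ext i j; simp [vecMulVec_apply]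
  have : (1 + vecMulVec u φ) * (1 - vecMulVec u φ) = 1 - vecMulVec u φ * vecMulVec u φ := by
    noncomm_ring
  rw [this, e1, sub_zero]

theorem inv_mul_rank_one {u φ : N → R} (h : φ ⬝ᵥ u = 0) :
    (1 - vecMulVec u φ) * (1 + vecMulVec u φ) = 1 := by
  have e1 : vecMulVec u φ * vecMulVec u φ = 0 := by
    rw [vecMulVec_mul_vecMulVec, h]; ext i j; simp [vecMulVec_apply]
  have : (1 - vecMulVec u φ) * (1 + vecMulVec u φ) = 1 - vecMulVec u φ * vecMulVec u φ := by
    noncomm_ring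
  rw [this, e1, sub_zero]

theorem Mem.comm_one {K : Subgroup (Matrix N N R)ˣ} {u φ w ψ : N → R}
    (hM : Mem K (1 + vecMulVec u φ)) (hh : Mem K (1 + vecMulVec w ψ))
    (h1 : φ ⬝ᵥ u = 0) (h2 : ψ ⬝ᵥ w = 0) (h3 : φ ⬝ᵥ w = 0) :
    Mem K (1 + vecMulVec ((ψ ⬝ᵥ u) • w) φ) := by
  rw [← H750.comm_one h1 h2 h3]
  exact ((hh.mul hM).mul (hh.inv (mul_inv_rank_one h2))).mul (hM.inv (mul_inv_rank_one h1))

theorem Mem.comm_two {K : Subgroup (Matrix N N R)ˣ} {u φ w ψ : N → R}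
    (hM : Mem K (1 + vecMulVec u φ)) (hh : Mem K (1 + vecMulVec w ψ))
    (h1 : φ ⬝ᵥ u = 0) (h2 : ψ ⬝ᵥ w = 0) (h3 : ψ ⬝ᵥ u = 0) :
    Mem K (1 - vecMulVec u ((φ ⬝ᵥ w) • ψ)) := by
  rw [← H750.comm_two h1 h2 h3]
  exact ((hh.mul hM).mul (hh.inv (mul_inv_rank_one h2))).mul (hM.inv (mul_inv_rank_one h1))

/-- The transvection. -/
def E (x y : N) (r : R) : Matrix N N R := 1 + vecMulVec (Pi.single x 1) (Pi.single y r)

theorem E_def (x y : N) (r : R) :
    E x y r = 1 + vecMulVec (Pi.single x 1) (Pi.single y r) := rfl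

theorem E_zero (x y : N) : E x y (0 : R) = 1 := by
  rw [E_def]; ext i j; simp [vecMulVec_apply]

theorem E_mul {x y : N} (h : x ≠ y) (r s : R) : E x y r * E x y s = E x y (r + s) := by
  rw [E_def, E_def, E_def]
  have e : vecMulVec (Pi.single x (1 : R)) (Pi.single y r) *
      vecMulVec (Pi.single x (1 : R)) (Pi.single y s) = 0 := by
    rw [vecMulVec_mul_vecMulVec]
    ext i j
    simp [vecMulVec_apply, Pi.single_apply, h.symm]
  have : (1 + vecMulVec (Pi.single x (1 : R)) (Pi.single y r)) *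
      (1 + vecMulVec (Pi.single x (1 : R)) (Pi.single y s)) =
      1 + (vecMulVec (Pi.single x (1 : R)) (Pi.single y r) +
        vecMulVec (Pi.single x (1 : R)) (Pi.single y s)) +
      vecMulVec (Pi.single x (1 : R)) (Pi.single y r) *
        vecMulVec (Pi.single x (1 : R)) (Pi.single y s) := by noncomm_ring
  rw [this, e, add_zero]
  congr 1
  ext i j
  simp only [vecMulVec_apply, Matrix.add_apply, Pi.single_apply]
  split_ifs <;> ring

/-- The group of a net of ideals. -/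
def netGroup (blk : N → X) (σ : X → X → Ideal R) (h0 : ∀ i, σ i i = ⊤)
    (h1 : ∀ i j k, σ i j * σ j k ≤ σ i k) : Subgroup (Matrix N N R)ˣ where
  carrier := {g | (∀ x y, (g : Matrix N N R) x y ∈ σ (blk x) (blk y)) ∧
    ∀ x y, ((g⁻¹ : (Matrix N N R)ˣ) : Matrix N N R) x y ∈ σ (blk x) (blk y)}
  one_mem' := by
    have : ∀ x y : N, (1 : Matrix N N R) x y ∈ σ (blk x) (blk y) := by
      intro x y
      by_cases h : x = y
      · subst h; rw [h0]; exact Submodule.mem_top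
      · rw [Matrix.one_apply_ne h]; exact Ideal.zero_mem _
    exact ⟨by simpa using this, by simpa using this⟩
  mul_mem' := by
    intro a b ha hb
    have key : ∀ A B : Matrix N N R, (∀ x y, A x y ∈ σ (blk x) (blk y)) →
        (∀ x y, B x y ∈ σ (blk x) (blk y)) → ∀ x y, (A * B) x y ∈ σ (blk x) (blk y) := by
      intro A B hA hB x y
      rw [Matrix.mul_apply]
      exact Ideal.sum_mem _ (fun z _ => h1 _ _ _ (Ideal.mul_mem_mul (hA x z) (hB z y)))
    refine ⟨?_, ?_⟩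
    · rw [Units.val_mul]; exact key _ _ ha.1 hb.1
    · rw [_root_.mul_inv_rev, Units.val_mul]; exact key _ _ hb.2 ha.2
  inv_mem' := by
    intro a ha
    exact ⟨ha.2, by rw [inv_inv]; exact ha.1⟩

theorem mem_netGroup {blk : N → X} {σ : X → X → Ideal R} {h0 : ∀ i, σ i i = ⊤}
    {h1 : ∀ i j k, σ i j * σ j k ≤ σ i k} {g : (Matrix N N R)ˣ} :
    g ∈ netGroup blk σ h0 h1 ↔ (∀ x y, (g : Matrix N N R) x y ∈ σ (blk x) (blk y)) ∧
    ∀ x y, ((g⁻¹ : (Matrix N N R)ˣ) : Matrix N N R) x y ∈ σ (blk x) (blk y) := Iff.rfl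

/-- The group of block diagonal matrices. -/
def blockGroup (blk : N → X) : Subgroup (Matrix N N R)ˣ where
  carrier := {g | (∀ x y, blk x ≠ blk y → (g : Matrix N N R) x y = 0) ∧
    ∀ x y, blk x ≠ blk y → ((g⁻¹ : (Matrix N N R)ˣ) : Matrix N N R) x y = 0}
  one_mem' := by
    have : ∀ x y : N, blk x ≠ blk y → (1 : Matrix N N R) x y = 0 := by
      intro x y h
      exact Matrix.one_apply_ne (fun e => h (by rw [e]))
    exact ⟨by simpa using this, by simpa using this⟩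
  mul_mem' := by
    intro a b ha hb
    have key : ∀ A B : Matrix N N R, (∀ x y, blk x ≠ blk y → A x y = 0) →
        (∀ x y, blk x ≠ blk y → B x y = 0) → ∀ x y, blk x ≠ blk y → (A * B) x y = 0 := by
      intro A B hA hB x y h
      rw [Matrix.mul_apply]
      refine Finset.sum_eq_zero (fun z _ => ?_)
      by_cases hz : blk x = blk z
      · rw [hB z y (fun e => h (hz.trans e)), mul_zero]
      · rw [hA x z hz, zero_mul]
    refine ⟨?_, ?_⟩
    · rw [Units.val_mul]; exact key _ _ ha.1 hb.1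
    · rw [_root_.mul_inv_rev, Units.val_mul]; exact key _ _ hb.2 ha.2
  inv_mem' := by
    intro a ha
    exact ⟨ha.2, by rw [inv_inv]; exact ha.1⟩

theorem mem_blockGroup {blk : N → X} {g : (Matrix N N R)ˣ} :
    g ∈ blockGroup blk ↔ (∀ x y, blk x ≠ blk y → (g : Matrix N N R) x y = 0) ∧
    ∀ x y, blk x ≠ blk y → ((g⁻¹ : (Matrix N N R)ˣ) : Matrix N N R) x y = 0 := Iff.rfl

theorem mem_block_rank_one {blk : N → X} {w ψ : N → R} (h : ψ ⬝ᵥ w = 0)
    (hb : ∀ x y, blk x ≠ blk y → w x * ψ y = 0) :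
    Mem (blockGroup blk) (1 + vecMulVec w ψ) := by
  refine ⟨⟨1 + vecMulVec w ψ, 1 - vecMulVec w ψ, mul_inv_rank_one h, inv_mul_rank_one h⟩,
    ⟨?_, ?_⟩, rfl⟩
  · intro x y hxy
    change (1 + vecMulVec w ψ : Matrix N N R) x y = 0
    rw [Matrix.add_apply, Matrix.one_apply_ne (fun e => hxy (by rw [e])), vecMulVec_apply,
      hb x y hxy, add_zero]
  · intro x y hxy
    change (1 - vecMulVec w ψ : Matrix N N R) x y = 0
    rw [Matrix.sub_apply, Matrix.one_apply_ne (fun e => hxy (by rw [e])), vecMulVec_apply,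
      hb x y hxy, sub_zero]

/-- The blocks are large (pigeonhole) and have different subset sums. -/
structure Good (R : Type) [CommRing R] (blk : N → X) : Prop where
  pigeon : ∀ (φ : N → R) (c : N), ∃ a b, a ≠ b ∧ a ≠ c ∧ b ≠ c ∧ blk a = blk c ∧
    blk b = blk c ∧ φ a = φ b
  other : ∀ (i : X) (c c' : N), ∃ a, blk a = i ∧ a ≠ c ∧ a ≠ c'
  sums : ∀ S T : Set X, Nat.card {x : N // blk x ∈ S} = Nat.card {x : N // blk x ∈ T} → S = T

end Vale.Agent.P183.H750
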