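import Vale.Agent.P183.Defs
import Mathlib.GroupTheory.Coset.Basic
import Mathlib.GroupTheory.GroupAction.Quotient
import Mathlib.Algebra.Group.Subgroup.Basic
import Mathlib.Data.Finite.Prod
import Mathlib.Data.Finite.Sum

/-!
P183: the subgroups above `H` which are closed under a set of endomorphisms of the group form a
congruence lattice.
-/

namespace Vale.Agent.P183.H750

open Vale.Agent.P183

/-- the equivalence relations compatible with all maps `f i` -/
abbrev UC (X I : Type) (f : I → X → X) : Type :=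
  {r : Setoid X // ∀ (i : I) (x y : X), r x y → r (f i x) (f i y)}

theorem rep_unary {X I : Type} [hX : Finite X] [hX' : Nonempty X] [hI : Finite I]
    {f : I → X → X} {L : Type} [LE L] (e : L ≃o UC X I f) : Representable L := by
  let A : FiniteAlgebra :=
    { carrier := X
      index := I
      arity := fun _ => 1
      op := fun i x => f i (x 0)
      finite_carrier := hX
      nonempty_carrier := hX'
      finite_index := hI }
  have hA : ∀ r : Setoid X, A.IsCongruence r ↔
      ∀ (i : I) (x y : X), r x y → r (f i x) (f i y) := by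
    intro r
    constructor
    · intro h i x y hxy
      exact h i (fun _ => x) (fun _ => y) fun _ => hxy
    · intro h i x y hxy
      exact h i _ _ (hxy (0 : Fin 1))
  refine ⟨A, ⟨e.trans ?_⟩⟩
  exact
    { toFun := fun r => ⟨r.1, (hA r.1).mpr r.2⟩
      invFun := fun r => ⟨r.1, (hA r.1).mp r.2⟩
      left_inv := fun _ => rfl
      right_inv := fun _ => rfl
      map_rel_iff' := Iff.rfl }

variable {G : Type} [Group G]

/-- the operation of an endomorphism on the cosets -/
def opF (H : Subgroup G) (φ : G →* G) (h : ∀ x ∈ H, φ x ∈ H) : G ⧸ H → G ⧸ H :=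
  Quotient.map' φ fun a b hab => by
    rw [QuotientGroup.leftRel_apply] at hab ⊢
    rw [← map_inv, ← map_mul]
    exact h _ hab

/-- left translations and the operations of the endomorphisms -/
def opAll (H : Subgroup G) (F : Set (G →* G)) (h : ∀ φ ∈ F, ∀ x ∈ H, φ x ∈ H) :
    G ⊕ F → G ⧸ H → G ⧸ H
  | Sum.inl g => fun x => g • x
  | Sum.inr φ => opF H φ.1 (h φ.1 φ.2)

/-- the relation of a subgroup `K ≥ H` -/
def relK (H K : Subgroup G) (hK : H ≤ K) : Setoid (G ⧸ H) :=
  Setoid.ker (Subgroup.quotientMapOfLE hK)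

theorem relK_mk (H K : Subgroup G) (hK : H ≤ K) (a b : G) :
    relK H K hK (a : G ⧸ H) (b : G ⧸ H) ↔ a⁻¹ * b ∈ K := by
  rw [relK, Setoid.ker_def]
  change ((a : G ⧸ K) = (b : G ⧸ K)) ↔ _
  rw [QuotientGroup.eq]

theorem fix_end [Finite G] (H : Subgroup G) (F : Set (G →* G))
    (h : ∀ φ ∈ F, ∀ x ∈ H, φ x ∈ H) :
    Representable {K : Subgroup G // H ≤ K ∧ ∀ φ ∈ F, ∀ x ∈ K, φ x ∈ K} := by
  have hfin : Finite (G →* G) := Finite.of_injective (fun f : G →* G => (f : G → G))
    DFunLike.coe_injective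
  have hF : Finite F := inferInstance
  have hQ : Finite (G ⧸ H) := Quotient.finite _
  have hcl : ∀ K : {K : Subgroup G // H ≤ K ∧ ∀ φ ∈ F, ∀ x ∈ K, φ x ∈ K},
      ∀ (i : G ⊕ F) (x y : G ⧸ H), relK H K.1 K.2.1 x y →
        relK H K.1 K.2.1 (opAll H F h i x) (opAll H F h i y) := by
    intro K i x y hxy
    induction x using QuotientGroup.induction_on with
    | H a =>
    induction y using QuotientGroup.induction_on with
    | H b =>
    rw [relK_mk] at hxy
    cases i with
    | inl g =>
      change relK H K.1 K.2.1 ((g * a : G) : G ⧸ H) ((g * b : G) : G ⧸ H)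
      rw [relK_mk, mul_inv_rev, mul_assoc, inv_mul_cancel_left]
      exact hxy
    | inr φ =>
      change relK H K.1 K.2.1 ((φ.1 a : G) : G ⧸ H) ((φ.1 b : G) : G ⧸ H)
      rw [relK_mk, ← map_inv, ← map_mul]
      exact K.2.2 φ.1 φ.2 _ hxy
  let T : {K : Subgroup G // H ≤ K ∧ ∀ φ ∈ F, ∀ x ∈ K, φ x ∈ K} →
      UC (G ⧸ H) (G ⊕ F) (opAll H F h) := fun K => ⟨relK H K.1 K.2.1, hcl K⟩
  have hle : ∀ K K', T K ≤ T K' ↔ K ≤ K' := by
    intro K K'
    constructor
    · intro hle g hg
      have h1 : relK H K.1 K.2.1 ((1 : G) : G ⧸ H) (g : G ⧸ H) := by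
        rw [relK_mk, inv_one, one_mul]
        exact hg
      have h2 : relK H K'.1 K'.2.1 ((1 : G) : G ⧸ H) (g : G ⧸ H) := hle h1
      rwa [relK_mk, inv_one, one_mul] at h2
    · intro hle x y hxy
      induction x using QuotientGroup.induction_on with
      | H a =>
      induction y using QuotientGroup.induction_on with
      | H b =>
      have h1 : relK H K.1 K.2.1 (a : G ⧸ H) (b : G ⧸ H) := hxy
      change relK H K'.1 K'.2.1 (a : G ⧸ H) (b : G ⧸ H)
      rw [relK_mk] at h1 ⊢
      exact hle h1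
  have hsurj : Function.Surjective T := by
    rintro ⟨r, hr⟩
    have hg : ∀ g a b : G, r (a : G ⧸ H) (b : G ⧸ H) →
        r ((g * a : G) : G ⧸ H) ((g * b : G) : G ⧸ H) :=
      fun g a b hab => hr (Sum.inl g) _ _ hab
    have hf : ∀ (φ : G →* G) (hφ : φ ∈ F) (a b : G), r (a : G ⧸ H) (b : G ⧸ H) →
        r ((φ a : G) : G ⧸ H) ((φ b : G) : G ⧸ H) :=
      fun φ hφ a b hab => hr (Sum.inr ⟨φ, hφ⟩) _ _ hab
    let K : Subgroup G :=
      { carrier := {g | r ((1 : G) : G ⧸ H) (g : G ⧸ H)}
        one_mem' := r.refl _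
        mul_mem' := by
          intro a b ha hb
          have h1 := hg a 1 b hb
          rw [mul_one] at h1
          exact r.trans ha h1
        inv_mem' := by
          intro a ha
          have h1 := hg a⁻¹ 1 a ha
          rw [mul_one, inv_mul_cancel] at h1
          exact r.symm h1 }
    have hK : ∀ g, g ∈ K ↔ r ((1 : G) : G ⧸ H) (g : G ⧸ H) := fun g => Iff.rfl
    have hHK : H ≤ K := by
      intro g hgH
      rw [hK]
      have : ((1 : G) : G ⧸ H) = (g : G ⧸ H) := by
        rw [QuotientGroup.eq, inv_one, one_mul]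
        exact hgH
      rw [this]
    have hFK : ∀ φ ∈ F, ∀ x ∈ K, φ x ∈ K := by
      intro φ hφ x hx
      rw [hK] at hx ⊢
      have h2 := hf φ hφ _ _ hx
      rwa [map_one] at h2
    refine ⟨⟨K, hHK, hFK⟩, ?_⟩
    apply Subtype.ext
    change relK H K hHK = r
    ext x y
    induction x using QuotientGroup.induction_on with
    | H a =>
    induction y using QuotientGroup.induction_on with
    | H b =>
    rw [relK_mk, hK]
    constructor
    · intro h1
      have h2 := hg a _ _ h1
      rwa [mul_one, mul_inv_cancel_left] at h2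
    · intro h1
      have h2 := hg a⁻¹ _ _ h1
      rwa [inv_mul_cancel] at h2
  have hinj : Function.Injective T := by
    intro K K' hKK
    exact le_antisymm ((hle K K').1 hKK.le) ((hle K' K).1 hKK.ge)
  let e : {K : Subgroup G // H ≤ K ∧ ∀ φ ∈ F, ∀ x ∈ K, φ x ∈ K} ≃o
      UC (G ⧸ H) (G ⊕ F) (opAll H F h) :=
    { toEquiv := Equiv.ofBijective T ⟨hinj, hsurj⟩
      map_rel_iff' := fun {K K'} => hle K K' }
  have hne : Nonempty (G ⧸ H) := ⟨((1 : G) : G ⧸ H)⟩
  exact rep_unary e

end Vale.Agent.P183.H750
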