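import Vale.Agent.P183.H750.Level

/-!
Over a finite commutative ring every overgroup of the block diagonal group is contained in the
group of its net.
-/

namespace Vale.Agent.P183.H750

set_option linter.all false

open Matrix

variable {R : Type} [CommRing R] {N X : Type} [Fintype N] [DecidableEq N] {blk : N → X}

theorem exists_term {P : Ideal R} (hP : P ≠ ⊤) {ι : Type} [Fintype ι] {f : ι → R}
    (h : ∑ i, f i = 1) : ∃ i, f i ∉ P := by
  by_contra hc
  push Not at hc
  have : (∑ i, f i) ∈ P := Ideal.sum_mem _ (fun i _ => hc i)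
  rw [h] at this
  exact hP ((Ideal.eq_top_iff_one _).2 this)

section

variable {P : Ideal R} (hP : P.IsMaximal) {K : Subgroup (Matrix N N R)ˣ}
  (hK : blockGroup blk ≤ K) (hg : Good R blk) {g : (Matrix N N R)ˣ}

/-- A unit entry in the column block. -/
def HasA (P : Ideal R) (blk : N → X) (g : (Matrix N N R)ˣ) (m i : X) : Prop :=
  ∃ x b, blk x = i ∧ blk b = m ∧ (g : Matrix N N R) x b ∉ P

/-- A unit entry of the inverse in the row block. -/
def HasB (P : Ideal R) (blk : N → X) (g : (Matrix N N R)ˣ) (m l : X) : Prop :=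
  ∃ c y, blk c = m ∧ blk y = l ∧ ((g⁻¹ : (Matrix N N R)ˣ) : Matrix N N R) c y ∉ P

include hP hK hg

theorem net_self_not : ∀ i, ¬ net K hK hg i i ≤ P := by
  intro i h
  rw [net_self, top_le_iff] at h
  exact hP.ne_top h

theorem top_of_AB (hgK : g ∈ K) {m i l : X} (hA : HasA P blk g m i) (hB : HasB P blk g m l) :
    ¬ net K hK hg i l ≤ P := by
  by_cases hil : i = l
  · subst hil; exact net_self_not hP hK hg i
  obtain ⟨x, b, hx, hb, hu⟩ := hA
  obtain ⟨c, y, hc, hy, hv⟩ := hB
  have hxy : blk x ≠ blk y := by rw [hx, hy]; exact hil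
  rw [← hx, ← hy]
  intro hle
  have nm : ∀ {a b : R}, a ∉ P → b ∉ P → a * b ∉ P := fun ha hb h =>
    (hP.isPrime.mem_or_mem h).elim ha hb
  by_cases hbc : b = c
  · subst hbc
    obtain ⟨b', k1, k2, -⟩ := hg.other m b b
    by_cases h1 : (g : Matrix N N R) x b' ∉ P
    · exact nm h1 hv (hle (entries_mem (hK := hK) (hg := hg) hgK hxy k2 (by rw [k1, hb])))
    by_cases h2 : ((g⁻¹ : (Matrix N N R)ˣ) : Matrix N N R) b' y ∉ P
    · exact nm hu h2 (hle (entries_mem (hK := hK) (hg := hg) hgK hxy k2.symm (by rw [k1, hb])))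
    rw [not_not] at h1 h2
    have := conj_mem (hK := hK) (hg := hg) hgK (w := Pi.single b 1 + Pi.single b' 1)
      (ψ := Pi.single b (1 : R) - Pi.single b' 1)
      (by simp [Pi.single_apply, k2, k2.symm])
      (by
        intro p q hpq
        simp only [Pi.single_apply, Pi.add_apply, Pi.sub_apply]
        by_cases e1 : blk p = m
        · have q1 : q ≠ b := fun e => hpq (by rw [e1, e, hb])
          have q2 : q ≠ b' := fun e => hpq (by rw [e1, e, k1])
          simp [q1, q2]
        · have q1 : p ≠ b := fun e => e1 (by rw [e, hb])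
          have q2 : p ≠ b' := fun e => e1 (by rw [e, k1])
          simp [q1, q2]) hxy
    refine nm ?_ ?_ (hle this)
    · rw [mulVec_add]
      simp only [Pi.add_apply, mulVec_single_one, col_apply]
      intro hc'
      have := Ideal.sub_mem _ hc' h1
      rw [add_sub_cancel_right] at this
      exact hu this
    · rw [sub_vecMul]
      simp only [Pi.sub_apply, single_one_vecMul, row_apply]
      intro hc'
      have := Ideal.add_mem _ hc' h2
      rw [sub_add_cancel] at this
      exact hv this
  · exact nm hu hv (hle (entries_mem (hK := hK) (hg := hg) hgK hxy hbc (by rw [hb, hc])))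

theorem net_not_trans {i j k : X} (h1 : ¬ net K hK hg i j ≤ P) (h2 : ¬ net K hK hg j k ≤ P) :
    ¬ net K hK hg i k ≤ P := by
  obtain ⟨r, hr, hr'⟩ := Set.not_subset.1 h1
  obtain ⟨s, hs, hs'⟩ := Set.not_subset.1 h2
  intro h
  exact (hP.isPrime.mem_or_mem (h (net_mul K hK hg i j k (Ideal.mul_mem_mul hr hs)))).elim hr' hs'

/-- The classes of blocks. -/
def cls : Setoid X where
  r i l := ¬ net K hK hg i l ≤ P ∧ ¬ net K hK hg l i ≤ P
  iseqv :=
    { refl := fun i => ⟨net_self_not hP hK hg i, net_self_not hP hK hg i⟩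
      symm := fun h => ⟨h.2, h.1⟩
      trans := fun h1 h2 =>
        ⟨net_not_trans hP hK hg h1.1 h2.1, net_not_trans hP hK hg h2.2 h1.2⟩ }

omit hK hg in
theorem exists_AB_row (c : N) : ∃ y, (g : Matrix N N R) y c ∉ P ∧
    ((g⁻¹ : (Matrix N N R)ˣ) : Matrix N N R) c y ∉ P := by
  have h : ∑ y, ((g⁻¹ : (Matrix N N R)ˣ) : Matrix N N R) c y * (g : Matrix N N R) y c = 1 := by
    rw [← Matrix.mul_apply, Units.inv_mul, Matrix.one_apply_eq]
  obtain ⟨y, hy⟩ := exists_term hP.ne_top h
  exact ⟨y, fun h => hy (Ideal.mul_mem_left _ _ h), fun h => hy (Ideal.mul_mem_right _ _ h)⟩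

omit hK in
theorem exists_e (m : X) : ∃ i, HasA P blk g m i ∧ HasB P blk g m i := by
  have hne : Nonempty N := by
    by_contra hne
    rw [not_nonempty_iff] at hne
    have hx := hg.sums ∅ {m} (by simp)
    have : m ∈ (∅ : Set X) := by rw [hx]; rfl
    exact this
  obtain ⟨c, hc, -, -⟩ := hg.other m (Classical.choice hne) (Classical.choice hne)
  obtain ⟨y, h1, h2⟩ := exists_AB_row (g := g) hP c
  exact ⟨blk y, ⟨y, c, rfl, hc, h1⟩, ⟨c, y, hc, rfl, h2⟩⟩

/-- The counting argument: the class of `e m` is the class of `m`. -/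
theorem class_eq [Finite X] (hgK : g ∈ K) (e : X → X)
    (he : ∀ m, HasA P blk g m (e m) ∧ HasB P blk g m (e m)) (m : X) :
    (cls hP hK hg).r (e m) m := by
  classical
  let s : Setoid X := cls hP hK hg
  let π : X → Quotient s := Quotient.mk s
  haveI : Fintype (Quotient s) := Fintype.ofFinite _
  haveI : Nontrivial (R ⧸ P) := Ideal.Quotient.nontrivial_iff.2 hP.ne_top
  have key : ∀ q : Quotient s, (Finset.univ.filter (fun x : N => π (blk x) = q)).card ≤
      (Finset.univ.filter (fun b : N => π (e (blk b)) = q)).card := by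
    intro q
    let M : Matrix {x : N // π (blk x) = q} {b : N // π (e (blk b)) = q} (R ⧸ P) :=
      fun x b => Ideal.Quotient.mk P ((g : Matrix N N R) x.1 b.1)
    let M' : Matrix {b : N // π (e (blk b)) = q} {x : N // π (blk x) = q} (R ⧸ P) :=
      fun b y => Ideal.Quotient.mk P (((g⁻¹ : (Matrix N N R)ˣ) : Matrix N N R) b.1 y.1)
    have hMM : M * M' = 1 := by
      ext x y
      rw [Matrix.mul_apply]
      have h1 : ∑ b : N, Ideal.Quotient.mk P ((g : Matrix N N R) x.1 b) *
          Ideal.Quotient.mk P (((g⁻¹ : (Matrix N N R)ˣ) : Matrix N N R) b y.1) =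
          (1 : Matrix _ _ (R ⧸ P)) x y := by
        have : ∑ b : N, (g : Matrix N N R) x.1 b *
            ((g⁻¹ : (Matrix N N R)ˣ) : Matrix N N R) b y.1 = (1 : Matrix N N R) x.1 y.1 := by
          rw [← Matrix.mul_apply, Units.mul_inv]
        have h2 := congrArg (Ideal.Quotient.mk P) this
        rw [map_sum] at h2
        simp only [map_mul] at h2
        rw [h2, Matrix.one_apply, Matrix.one_apply]
        by_cases hxy : x = y
        · simp [hxy]
        · have : x.1 ≠ y.1 := fun h => hxy (Subtype.ext h)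
          simp [hxy, this]
      rw [← h1]
      have hz : ∀ b : N, b ∉ Finset.univ.filter (fun b : N => π (e (blk b)) = q) →
          Ideal.Quotient.mk P ((g : Matrix N N R) x.1 b) *
          Ideal.Quotient.mk P (((g⁻¹ : (Matrix N N R)ˣ) : Matrix N N R) b y.1) = 0 := by
        intro b hb
        by_contra hne
        have u1 : (g : Matrix N N R) x.1 b ∉ P := by
          intro hn
          exact hne (by rw [Ideal.Quotient.eq_zero_iff_mem.2 hn, zero_mul])
        have u2 : ((g⁻¹ : (Matrix N N R)ˣ) : Matrix N N R) b y.1 ∉ P := by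
          intro hn
          exact hne (by rw [Ideal.Quotient.eq_zero_iff_mem.2 hn, mul_zero])
        have a1 : HasA P blk g (blk b) (blk x.1) := ⟨x.1, b, rfl, rfl, u1⟩
        have a2 : HasB P blk g (blk b) (blk y.1) := ⟨b, y.1, rfl, rfl, u2⟩
        have t1 := top_of_AB hP hK hg hgK a1 (he (blk b)).2
        have t2 := top_of_AB hP hK hg hgK (he (blk b)).1 a2
        have t3 : (cls hP hK hg).r (blk y.1) (blk x.1) := Quotient.exact (y.2.trans x.2.symm)
        have t4 : (cls hP hK hg).r (e (blk b)) (blk x.1) := ⟨net_not_trans hP hK hg t2 t3.1, t1⟩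
        exact hb (by
          simp only [Finset.mem_filter, Finset.mem_univ, true_and]
          exact (Quotient.sound t4).trans x.2)
      rw [← Finset.sum_subset (Finset.subset_univ _) (fun b _ hb => hz b hb)]
      rw [Finset.sum_subtype (Finset.univ.filter (fun b : N => π (e (blk b)) = q))
        (p := fun b : N => π (e (blk b)) = q) (by simp)]
    have h2 : Fintype.card {x : N // π (blk x) = q} ≤ Fintype.card {b : N // π (e (blk b)) = q} := by
      calc Fintype.card {x : N // π (blk x) = q} = (M * M').rank := by rw [hMM, Matrix.rank_one]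
        _ ≤ M.rank := Matrix.rank_mul_le_left _ _
        _ ≤ _ := Matrix.rank_le_card_width _
    rw [Fintype.card_subtype, Fintype.card_subtype] at h2
    exact h2
  have tot : ∑ q : Quotient s, (Finset.univ.filter (fun x : N => π (blk x) = q)).card =
      ∑ q : Quotient s, (Finset.univ.filter (fun b : N => π (e (blk b)) = q)).card := by
    rw [← Finset.card_eq_sum_card_fiberwise (fun x _ => Finset.mem_univ _),
      ← Finset.card_eq_sum_card_fiberwise (fun x _ => Finset.mem_univ _)]
  have eq := (Finset.sum_eq_sum_iff_of_le (fun q _ => key q)).1 tot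
  have hS : {i : X | π i = π m} = {i : X | π (e i) = π m} := by
    apply hg.sums
    have := eq (π m) (Finset.mem_univ _)
    rw [Nat.card_eq_fintype_card, Nat.card_eq_fintype_card, Fintype.card_subtype,
      Fintype.card_subtype]
    exact this
  have hm : m ∈ {i : X | π i = π m} := rfl
  rw [hS] at hm
  exact Quotient.exact hm

end

/-- Every overgroup is contained in the group of its net. -/
theorem entry_mem_net [Finite X] {K : Subgroup (Matrix N N R)ˣ} (hK : blockGroup blk ≤ K)
    (hg : Good R blk) {g : (Matrix N N R)ˣ} (hgK : g ∈ K) (x b : N) :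
    (g : Matrix N N R) x b ∈ net K hK hg (blk x) (blk b) := by
  let I : Ideal R :=
    { carrier := {r | (g : Matrix N N R) x b * r ∈ net K hK hg (blk x) (blk b)}
      add_mem' := fun {r s} hr hs => by
        change (g : Matrix N N R) x b * (r + s) ∈ net K hK hg (blk x) (blk b)
        rw [mul_add]; exact Ideal.add_mem _ hr hs
      zero_mem' := by
        change (g : Matrix N N R) x b * 0 ∈ net K hK hg (blk x) (blk b)
        rw [mul_zero]; exact Ideal.zero_mem _
      smul_mem' := fun c r hr => by
        change (g : Matrix N N R) x b * (c * r) ∈ net K hK hg (blk x) (blk b)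
        rw [mul_left_comm]; exact Ideal.mul_mem_left _ _ hr }
  have hI : I = ⊤ := by
    by_contra hne
    obtain ⟨P, hP, hIP⟩ := Ideal.exists_le_maximal I hne
    choose e he using fun m => exists_e (g := g) hP hg m
    obtain ⟨c, c1, c2, -⟩ := hg.other (blk b) b b
    obtain ⟨y, u1, u2⟩ := exists_AB_row (g := g) hP c
    have hy : ¬ net K hK hg (blk y) (blk b) ≤ P := by
      have t1 : ¬ net K hK hg (blk y) (e (blk b)) ≤ P :=
        top_of_AB hP hK hg hgK (m := blk b) ⟨y, c, rfl, c1, u1⟩ (he (blk b)).2
      exact net_not_trans hP hK hg t1 (class_eq hP hK hg hgK e he (blk b)).1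
    obtain ⟨s, hs, hsP⟩ := Set.not_subset.1 hy
    by_cases hxy : blk x = blk y
    · refine hsP (hIP ?_)
      change (g : Matrix N N R) x b * s ∈ net K hK hg (blk x) (blk b)
      rw [hxy]; exact Ideal.mul_mem_left _ _ hs
    · have h1 := entries_mem (hK := hK) (hg := hg) hgK hxy c2.symm c1.symm
      have h3 := net_mul K hK hg (blk x) (blk y) (blk b) (Ideal.mul_mem_mul h1 hs)
      rw [mul_assoc] at h3
      have h4 : ((g⁻¹ : (Matrix N N R)ˣ) : Matrix N N R) c y * s ∈ P := hIP h3
      exact (hP.isPrime.mem_or_mem h4).elim u2 hsP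
  have : (1 : R) ∈ I := by rw [hI]; exact Submodule.mem_top
  have h : (g : Matrix N N R) x b * 1 ∈ net K hK hg (blk x) (blk b) := this
  rwa [mul_one] at h

theorem le_netGroup [Finite X] {K : Subgroup (Matrix N N R)ˣ} (hK : blockGroup blk ≤ K)
    (hg : Good R blk) :
    K ≤ netGroup blk (net K hK hg) (net_self K hK hg) (net_mul K hK hg) := by
  intro g hgK
  exact ⟨fun x y => entry_mem_net hK hg hgK x y,
    fun x y => entry_mem_net hK hg (K.inv_mem hgK) x y⟩

end Vale.Agent.P183.H750
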